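import Vale.Agent.P200.Main

open Module MvPolynomial TensorProduct

namespace Vale.Agent.P200

universe u

variable {K : Type u} [Field K] {σ : Type}

theorem Reg.map (L : Type u) [Field L] [Algebra K L] {J : Ideal (MvPolynomial σ K)}
    {a : MvPolynomial σ K} (h : Reg J a) :
    Reg (J.map (MvPolynomial.map (algebraMap K L))) (MvPolynomial.map (algebraMap K L) a) := by
  let e := algebraTensorAlgEquiv (σ := σ) K L
  let g := Ideal.Quotient.mkₐ K J
  have hk := Algebra.TensorProduct.lTensor_ker (A := L) g (Ideal.Quotient.mkₐ_surjective K J)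
  have hJ : RingHom.ker g = J := Ideal.Quotient.mkₐ_ker K J
  have key : ∀ x, e x ∈ J.map (MvPolynomial.map (algebraMap K L)) ↔
      Algebra.TensorProduct.map (AlgHom.id K L) g x = 0 := by
    intro x
    have : MvPolynomial.map (algebraMap K L) = (e : _ →+* _).comp
        (Algebra.TensorProduct.includeRight : MvPolynomial σ K →ₐ[K] L ⊗[K] _).toRingHom := by
      refine RingHom.ext fun p => ?_
      simp [e]
    rw [← RingHom.mem_ker, hk, hJ, this, ← Ideal.map_map]
    exact Ideal.mem_map_iff_of_surjective _ e.surjective |>.trans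
      ⟨fun ⟨y, hy, hxy⟩ => e.injective hxy ▸ hy, fun hx => ⟨x, hx, rfl⟩⟩
  intro z hz
  obtain ⟨x, rfl⟩ := e.surjective z
  have ha : MvPolynomial.map (algebraMap K L) a = e (1 ⊗ₜ a) := by simp [e]
  rw [ha, ← map_mul, key, map_mul] at hz
  rw [key]
  have hinj : Function.Injective (LinearMap.mulLeft K (g a)) := by
    rw [injective_iff_map_eq_zero]
    intro w hw
    obtain ⟨w, rfl⟩ := Ideal.Quotient.mk_surjective w
    exact Ideal.Quotient.eq_zero_iff_mem.2 (h w (Ideal.Quotient.eq_zero_iff_mem.1 hw))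
  refine (injective_iff_map_eq_zero _).1
    (Module.Flat.lTensor_preserves_injective_linearMap (M := L) _ hinj) _ (Eq.trans ?_ hz)
  generalize Algebra.TensorProduct.map (AlgHom.id K L) g x = w
  induction w with
  | zero => simp
  | tmul b w => simp
  | add x y hx hy => rw [map_add, mul_add, hx, hy]

theorem finrank_mono_ideal [Fintype σ] (T : Set (σ →₀ ℕ)) (hT : ∀ u ∈ T, ∀ w, u + w ∈ T) (d : ℕ) :
    finrank K (pc (Ideal.span ((fun u => monomial u (1 : K)) '' T)) d) =
      {u | u.degree = d ∧ u ∈ T}.ncard := by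
  classical
  have e : ((Finset.univ.finsuppAntidiag d).filter (· ∈ T) : Finset (σ →₀ ℕ)) =
      {u : σ →₀ ℕ | u.degree = d ∧ u ∈ T} := by
    ext u
    simp only [Finset.coe_filter, mem_anti]
  rw [← e, Set.ncard_coe_finset, ← finrank_restrictSupport (L := K), e]
  refine congrArg (fun W : Submodule K (MvPolynomial σ K) => finrank K W) ?_
  ext p
  rw [mem_pc, mem_ideal_span_monomial_image, mem_restrictSupport_iff]
  constructor
  · rintro ⟨h1, h2⟩ u hu
    obtain ⟨v, hv, hle⟩ := h2 u hu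
    refine ⟨?_, by rw [← add_tsub_cancel_of_le hle]; exact hT v hv _⟩
    by_contra hn
    exact mem_support_iff.1 hu (h1.coeff_eq_zero hn)
  · refine fun h => ⟨fun u hu => ?_, fun u hu => ⟨u, (h hu).2, le_rfl⟩⟩
    have := (h (mem_support_iff.2 hu)).1
    rwa [Finsupp.degree_eq_weight_one] at this

theorem main_all {n c : ℕ} (hc0 : 0 < c) (hc : c ≤ n)
    (f : Fin c → MvPolynomial (Fin n) K) (hf : ∀ i, (f i).IsHomogeneous 2)
    (hr : ∀ i : Fin c, Reg (fI f i) (f i)) (I : Ideal (MvPolynomial (Fin n) K))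
    (hI : ∀ i, f i ∈ I) :
    ∃ T : Set (Fin n →₀ ℕ), (∀ u ∈ T, ∀ w, u + w ∈ T) ∧
      (∀ i : Fin c, Finsupp.single (Fin.castLE hc i) 2 ∈ T) ∧
      ∀ d, finrank K (pc I d) = {u | u.degree = d ∧ u ∈ T}.ncard := by
  let L := AlgebraicClosure K
  let e := algebraTensorAlgEquiv (σ := Fin n) K L
  have he : ∀ p, e (1 ⊗ₜ p) = MvPolynomial.map (algebraMap K L) p := fun p => by simp [e]
  obtain ⟨T, h1, h2, h3⟩ := main_inf hc0 hc (fun i => MvPolynomial.map (algebraMap K L) (f i))
    (fun i => (hf i).map _)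
    (fun i => by
      have := (hr i).map L
      rwa [fI, Ideal.map_span, Set.image_image] at this)
    (fun d => ((pc I d).baseChange L).map e.toLinearEquiv.toLinearMap)
    (fun d => Submodule.map_le_iff_le_comap.2 (bc_le fun p hp => by
      show IsHomogeneous (e _) d
      rw [he]; exact hp.1.map _))
    (fun d p hp q hq => by
      have : Sd (Fin n) L 1 ≤
          ((Sd (Fin n) K 1).baseChange L).map e.toLinearEquiv.toLinearMap := by
        rw [Sd, homogeneousSubmodule_one_eq_span_X, Submodule.span_le]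
        rintro _ ⟨i, rfl⟩
        exact ⟨1 ⊗ₜ X i, Submodule.tmul_mem_baseChange_of_mem _ (isHomogeneous_X K i),
          (he _).trans (map_X _ _)⟩
      obtain ⟨p, hp, rfl⟩ := hp
      obtain ⟨q, hq', rfl⟩ := this hq
      exact ⟨p * q, bc_mul (N1 := pc I d) (N2 := Sd (Fin n) K 1) (N3 := pc I (d + 1))
        (fun a ha b hb => ⟨IsHomogeneous.mul ha.1 hb,
        I.mul_mem_right b ha.2⟩) hp hq', map_mul e p q⟩)
    (fun i => ⟨1 ⊗ₜ f i, Submodule.tmul_mem_baseChange_of_mem _ ⟨hf i, hI i⟩, he _⟩)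
  exact ⟨T, h1, h2, fun d => by rw [← h3, LinearEquiv.finrank_map_eq, finrank_bc]⟩

end Vale.Agent.P200
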