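import Mathlib

open Module

namespace Vale.Agent.P200

universe u

variable {L : Type u} [Field L]

section
variable {τ : Type} {M : ℕ → Type u} [∀ d, AddCommGroup (M d)] [∀ d, Module L (M d)]

def Stab (t : τ → ∀ d, M d →ₗ[L] M (d + 2)) (N : ∀ d, Submodule L (M d)) : Prop :=
  ∀ a d, ∀ x ∈ N d, t a d x ∈ N (d + 2)

def FGen (t : τ → ∀ d, M d →ₗ[L] M (d + 2)) (N : ∀ d, Submodule L (M d)) : Prop :=
  ∃ d0, ∀ d ≥ d0, N (d + 2) ≤ ⨆ a, (N d).map (t a d)

def NoethOn (t : τ → ∀ d, M d →ₗ[L] M (d + 2)) (F : ∀ d, Submodule L (M d)) : Prop :=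
  ∀ N : ∀ d, Submodule L (M d), (∀ d, N d ≤ F d) → Stab t N → FGen t N

theorem NoethOn.mono {t : τ → ∀ d, M d →ₗ[L] M (d + 2)} {F G : ∀ d, Submodule L (M d)}
    (h : NoethOn t F) (hG : ∀ d, G d ≤ F d) : NoethOn t G :=
  fun N hN hs => h N (fun d => (hN d).trans (hG d)) hs

theorem noethOn_of_maps {M' : ℕ → Type u} [∀ d, AddCommGroup (M' d)] [∀ d, Module L (M' d)]
    {ρ : Type*} [Finite ρ] (t : τ → ∀ d, M d →ₗ[L] M (d + 2))
    (t' : τ → ∀ d, M' d →ₗ[L] M' (d + 2)) (F : ∀ d, Submodule L (M d))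
    (F' : ρ → ∀ d, Submodule L (M' d)) (p : ρ → ∀ d, M d →ₗ[L] M' d)
    (hc : ∀ r a d x, p r (d + 2) (t a d x) = t' a d (p r d x))
    (hF : ∀ r d, ∀ x ∈ F d, p r d x ∈ F' r d)
    (hi : ∀ d, ∀ x ∈ F d, (∀ r, p r d x = 0) → x = 0)
    (hN : ∀ r, NoethOn t' (F' r)) : NoethOn t F := by
  classical
  have := Fintype.ofFinite ρ
  have key : ∀ s : Finset ρ, ∀ N : ∀ d, Submodule L (M d), (∀ d, N d ≤ F d) → Stab t N →
      (∀ d, ∀ x ∈ N d, (∀ r ∈ s, p r d x = 0) → x = 0) → FGen t N := by
    intro s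
    induction s using Finset.induction_on with
    | empty =>
      intro N _ _ h0
      refine ⟨0, fun d _ x hx => ?_⟩
      rw [h0 _ x hx (by simp)]; exact zero_mem _
    | insert r s _ ih =>
      intro N hle hs h0
      obtain ⟨d1, h1⟩ := hN r (fun d => (N d).map (p r d))
        (by rintro d _ ⟨x, hx, rfl⟩; exact hF r d x (hle d hx))
        (by rintro a d _ ⟨x, hx, rfl⟩; exact ⟨_, hs a d x hx, hc r a d x⟩)
      obtain ⟨d2, h2⟩ := ih (fun d => N d ⊓ LinearMap.ker (p r d))
        (fun d => inf_le_left.trans (hle d))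
        (by
          rintro a d x ⟨hx, hx'⟩
          refine ⟨hs a d x hx, ?_⟩
          have : p r d x = 0 := hx'
          show p r (d + 2) (t a d x) = 0
          rw [hc, this, map_zero])
        (by
          rintro d x ⟨hx, hx'⟩ h
          refine h0 d x hx fun r' hr' => ?_
          rcases Finset.mem_insert.1 hr' with rfl | hr'
          · exact hx'
          · exact h r' hr')
      refine ⟨max d1 d2, fun d hd x hx => ?_⟩
      have hp := h1 d (le_of_max_le_left hd) (Submodule.mem_map_of_mem hx)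
      have : ∃ y ∈ ⨆ a, (N d).map (t a d), p r (d + 2) y = p r (d + 2) x := by
        generalize p r (d + 2) x = w at hp
        induction hp using Submodule.iSup_induction' with
        | mem a w hw =>
          obtain ⟨_, ⟨z, hz, rfl⟩, rfl⟩ := hw
          exact ⟨t a d z, Submodule.mem_iSup_of_mem a ⟨z, hz, rfl⟩, hc r a d z⟩
        | zero => exact ⟨0, zero_mem _, map_zero _⟩
        | add w w' _ _ h h' =>
          obtain ⟨y, hy, rfl⟩ := h
          obtain ⟨y', hy', rfl⟩ := h'
          exact ⟨y + y', add_mem hy hy', map_add _ _ _⟩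
      obtain ⟨y, hy, hpy⟩ := this
      have hyN : y ∈ N (d + 2) := by
        refine (iSup_le fun a => ?_ : _ ≤ N (d + 2)) hy
        rintro _ ⟨z, hz, rfl⟩; exact hs a d z hz
      have h3 := h2 d (le_of_max_le_right hd) (x := x - y)
        ⟨sub_mem hx hyN, by show p r (d + 2) (x - y) = 0; rw [map_sub, hpy, sub_self]⟩
      have h4 : x - y ∈ ⨆ a, (N d).map (t a d) :=
        (iSup_mono fun a => Submodule.map_mono inf_le_left) h3
      simpa using add_mem h4 hy
  intro N hle hs
  exact key Finset.univ N hle hs fun d x hx h => hi d x (hle d hx) fun r => h r (by simp)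

end

section
variable {V W : Type u} [AddCommGroup V] [Module L V] [AddCommGroup W] [Module L W]

/-- Subquotient. -/
abbrev SQ (Z B : Submodule L V) : Type u := Z ⧸ B.submoduleOf Z

def indu {Z B : Submodule L V} {Z' B' : Submodule L W} (φ : V →ₗ[L] W)
    (hZ : ∀ x ∈ Z, φ x ∈ Z') (hB : ∀ x ∈ B, φ x ∈ B') : SQ Z B →ₗ[L] SQ Z' B' :=
  Submodule.mapQ _ _ (φ.restrict hZ) fun x hx => hB x hx

theorem indu_mk {Z B : Submodule L V} {Z' B' : Submodule L W} (φ : V →ₗ[L] W)
    (hZ : ∀ x ∈ Z, φ x ∈ Z') (hB : ∀ x ∈ B, φ x ∈ B') (x : Z) :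
    indu φ hZ hB (Submodule.Quotient.mk x) = Submodule.Quotient.mk ⟨φ x, hZ x x.2⟩ := rfl

theorem finrank_SQ (Z B : Submodule L V) [FiniteDimensional L Z] (h : B ≤ Z) :
    finrank L (SQ Z B) + finrank L B = finrank L Z := by
  rw [← (Submodule.submoduleOfEquivOfLe h).finrank_eq]
  exact Submodule.finrank_quotient_add_finrank _

end

theorem noeth_SQ {τ τ' : Type} {M : ℕ → Type u} [∀ d, AddCommGroup (M d)] [∀ d, Module L (M d)]
    (t : τ → ∀ d, M d →ₗ[L] M (d + 2)) (Z B : ∀ d, Submodule L (M d)) (hZ : Stab t Z)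
    (hB : Stab t B) (e : τ' → τ)
    (hk : ∀ a, (∃ a', e a' = a) ∨ ∀ d, ∀ x ∈ Z d, t a d x ∈ B (d + 2))
    (hN : NoethOn t Z) :
    NoethOn (M := fun d => SQ (Z d) (B d))
      (fun a' d => indu (t (e a') d) (hZ _ d) (hB _ d)) fun _ => ⊤ := by
  intro N _ hs
  obtain ⟨d0, h0⟩ := hN (fun d => ((N d).comap (Submodule.mkQ _)).map (Z d).subtype)
    (by rintro d _ ⟨x, _, rfl⟩; exact x.2)
    (by
      rintro a d _ ⟨x, hx, rfl⟩
      refine ⟨⟨t a d x, hZ a d x x.2⟩, ?_, rfl⟩
      rcases hk a with ⟨a', rfl⟩ | h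
      · exact hs a' d _ hx
      · have : (Submodule.mkQ ((B (d + 2)).submoduleOf (Z (d + 2))))
            ⟨t a d x, hZ a d x x.2⟩ = 0 := (Submodule.Quotient.mk_eq_zero _).2 (h d x x.2)
        show (Submodule.mkQ _) _ ∈ N (d + 2)
        rw [this]; exact zero_mem _)
  refine ⟨d0, fun d hd n hn => ?_⟩
  obtain ⟨x, rfl⟩ := Submodule.Quotient.mk_surjective _ n
  have hx := h0 d hd (x := (x : M (d + 2))) ⟨x, hn, rfl⟩
  have : ∀ y ∈ ⨆ a, (((N d).comap (Submodule.mkQ _)).map (Z d).subtype).map (t a d),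
      ∃ hy : y ∈ Z (d + 2), Submodule.Quotient.mk ⟨y, hy⟩ ∈
        ⨆ a', (N d).map (indu (t (e a') d) (hZ _ d) (hB _ d)) := by
    intro y hy
    induction hy using Submodule.iSup_induction' with
    | mem a w hw =>
      obtain ⟨_, ⟨z, hz, rfl⟩, rfl⟩ := hw
      refine ⟨hZ a d z z.2, ?_⟩
      rcases hk a with ⟨a', rfl⟩ | h
      · exact Submodule.mem_iSup_of_mem a' ⟨_, hz, rfl⟩
      · have : (Submodule.Quotient.mk ⟨t a d z, hZ a d z z.2⟩ : SQ (Z (d + 2)) (B (d + 2))) = 0 :=
          (Submodule.Quotient.mk_eq_zero _).2 (h d z z.2)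
        exact this ▸ zero_mem _
    | zero => exact ⟨zero_mem _, zero_mem _⟩
    | add w w' _ _ h h' =>
      obtain ⟨hy, h⟩ := h
      obtain ⟨hy', h'⟩ := h'
      exact ⟨add_mem hy hy', add_mem h h'⟩
  obtain ⟨_, h⟩ := this _ hx
  exact h

open MvPolynomial

/-- Polynomials all of whose monomials `α` satisfy `2 |α| + s = e`. -/
def Gs (L : Type u) [Field L] (τ : Type) (s e : ℕ) : Submodule L (MvPolynomial τ L) where
  carrier := {p | ∀ α, coeff α p ≠ 0 → 2 * α.degree + s = e}
  zero_mem' := by simp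
  add_mem' := by
    intro p q hp hq α h
    by_cases h1 : coeff α p = 0
    · exact hq α (by simpa [h1] using h)
    · exact hp α h1
  smul_mem' := by
    intro c p hp α h
    exact hp α fun h1 => h (by simp [h1])

/-- The projection onto `Gs s e`. -/
noncomputable def prG (L : Type u) [Field L] (τ : Type) (s e : ℕ) :
    MvPolynomial τ L →ₗ[L] MvPolynomial τ L :=
  if s ≤ e ∧ (e - s) % 2 = 0 then homogeneousComponent ((e - s) / 2) else 0

theorem coeff_prG {τ : Type} (s e : ℕ) (p : MvPolynomial τ L) (α : τ →₀ ℕ) :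
    coeff α (prG L τ s e p) = if 2 * α.degree + s = e then coeff α p else 0 := by
  unfold prG
  split_ifs with h1 h2 h2
  · rw [coeff_homogeneousComponent, if_pos (by omega)]
  · rw [coeff_homogeneousComponent, if_neg (by omega)]
  · omega
  · simp

theorem prG_of_mem {τ : Type} {s e e' : ℕ} {p : MvPolynomial τ L} (hp : p ∈ Gs L τ s e) :
    prG L τ s e' p = if e = e' then p else 0 := by
  ext α
  rw [coeff_prG]
  by_cases h : coeff α p = 0
  · split_ifs <;> simp [h]
  · have := hp α h
    split_ifs <;> first | rfl | omega | simp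

theorem monomial_mul_mem_Gs {τ : Type} {s e : ℕ} {p : MvPolynomial τ L} (hp : p ∈ Gs L τ s e)
    (β : τ →₀ ℕ) (c : L) : monomial β c * p ∈ Gs L τ s (e + 2 * β.degree) := by
  classical
  intro α h
  rw [coeff_monomial_mul'] at h
  split_ifs at h with hle
  · have := hp (α - β) (right_ne_zero_of_mul h)
    have h2 : α.degree = (α - β).degree + β.degree := by
      rw [← map_add, tsub_add_cancel_of_le hle]
    omega
  · exact absurd rfl h

theorem noethOn_Gs {τ : Type} [Finite τ] (s : ℕ) :
    NoethOn (M := fun _ => MvPolynomial τ L) (fun a _ => LinearMap.mulLeft L (X a))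
      (Gs L τ s) := by
  classical
  intro (N : ℕ → Submodule L (MvPolynomial τ L)) (hle : ∀ d, N d ≤ Gs L τ s d)
    (hs : ∀ a d, ∀ x ∈ N d, X a * x ∈ N (d + 2))
  show ∃ d0, ∀ d ≥ d0, N (d + 2) ≤ ⨆ a, (N d).map (LinearMap.mulLeft L (X a))
  have hfg : (Ideal.span (⋃ e, (N e : Set (MvPolynomial τ L)))).FG := IsNoetherian.noetherian _
  obtain ⟨T, hT, hspan⟩ := (Submodule.fg_span_iff_fg_span_finset_subset _).1 hfg
  have hT' : ∀ g : T, ∃ e, (g : MvPolynomial τ L) ∈ N e := fun g => by
    simpa using hT g.2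
  choose eg heg using hT'
  have hmul : ∀ (β : τ →₀ ℕ) e, ∀ p ∈ N e, monomial β 1 * p ∈ N (e + 2 * β.degree) := by
    intro β
    induction β using Finsupp.induction_linear with
    | zero => intro e p hp; simpa using hp
    | add β β' h h' =>
      intro e p hp
      have := h _ _ (h' e p hp)
      rw [← mul_assoc, monomial_mul, mul_one] at this
      rwa [map_add, mul_add, ← add_assoc, add_right_comm]
    | single a k =>
      intro e p hp
      induction k with
      | zero => simpa using hp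
      | succ k ih =>
        have := hs a _ _ ih
        simp only [Finsupp.degree_single] at this ⊢
        rw [← mul_assoc, X, monomial_mul, mul_one, ← Finsupp.single_add, add_comm 1 k] at this
        exact this
  refine ⟨Finset.univ.sup eg, fun d hd n hn => ?_⟩
  have hn' : n ∈ Submodule.span (MvPolynomial τ L) (T : Set (MvPolynomial τ L)) := by
    rw [← hspan]
    exact Ideal.subset_span (Set.mem_iUnion.2 ⟨_, hn⟩)
  have key : ∀ x ∈ Submodule.span (MvPolynomial τ L) (T : Set (MvPolynomial τ L)), ∀ q,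
      prG L τ s (d + 2) (q * x) ∈ ⨆ a, (N d).map (LinearMap.mulLeft L (X a)) := by
    intro x hx
    induction hx using Submodule.span_induction with
    | mem g hg =>
      intro q
      induction q using MvPolynomial.induction_on' with
      | add p q hp hq => rw [add_mul, map_add]; exact add_mem hp hq
      | monomial β c =>
        rw [prG_of_mem (monomial_mul_mem_Gs (hle _ (heg ⟨g, hg⟩)) β c)]
        split_ifs with h
        · have hle' : eg ⟨g, hg⟩ ≤ d := (Finset.le_sup (Finset.mem_univ _)).trans hd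
          have hβ : β ≠ 0 := by rintro rfl; simp at h; omega
          obtain ⟨a, ha⟩ := Finsupp.ne_iff.1 hβ
          have hsub : β = Finsupp.single a 1 + (β - Finsupp.single a 1) := by
            rw [add_tsub_cancel_of_le]
            rw [Finsupp.single_le_iff]; simp at ha; omega
          have hdeg : β.degree = 1 + (β - Finsupp.single a 1).degree := by
            conv_lhs => rw [hsub]
            simp
          have h1 := hmul (β - Finsupp.single a 1) _ _ (heg ⟨g, hg⟩)
          have hd' : eg ⟨g, hg⟩ + 2 * Finsupp.degree (β - Finsupp.single a 1 : τ →₀ ℕ) = d := by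
            omega
          rw [hd'] at h1
          refine Submodule.mem_iSup_of_mem a ⟨c • _, Submodule.smul_mem _ c h1, ?_⟩
          simp only [LinearMap.mulLeft_apply, mul_smul_comm]
          rw [← mul_assoc, X, monomial_mul, mul_one, ← hsub, ← smul_mul_assoc, smul_monomial,
            smul_eq_mul, mul_one]
        · exact zero_mem _
    | zero => simp
    | add x y _ _ hx hy => intro q; rw [mul_add, map_add]; exact add_mem (hx q) (hy q)
    | smul r x _ hx => intro q; rw [smul_eq_mul, ← mul_assoc]; exact hx _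
  have := key n hn' 1
  rwa [one_mul, prG_of_mem (hle _ hn), if_pos rfl] at this

end Vale.Agent.P200
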