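import Vale.Agent.P200.Graded
import Vale.Agent.P200.GM

open Module MvPolynomial

namespace Vale.Agent.P200

universe u

variable {L : Type u} [Field L] {τ : Type}

theorem Gs_mul {s e s' e' s'' e'' : ℕ} {p q : MvPolynomial τ L} (hp : p ∈ Gs L τ s e)
    (hq : q ∈ Gs L τ s' e') (h : s'' + e + e' = e'' + s + s') : p * q ∈ Gs L τ s'' e'' := by
  classical
  intro α hα
  rw [coeff_mul] at hα
  obtain ⟨⟨β, β'⟩, hb, hne⟩ := Finset.exists_ne_zero_of_sum_ne_zero hα
  have h1 := hp β (left_ne_zero_of_mul hne)
  have h2 := hq β' (right_ne_zero_of_mul hne)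
  have h3 : α.degree = β.degree + β'.degree := by
    rw [← map_add]; exact congrArg _ (Finset.HasAntidiagonal.mem_antidiagonal.1 hb).symm
  omega

theorem Gs_shift {s e s' e' : ℕ} {p : MvPolynomial τ L} (hp : p ∈ Gs L τ s e)
    (h : s' + e = e' + s) : p ∈ Gs L τ s' e' := fun α hα => by have := hp α hα; omega

theorem Gs_of_hom {k s : ℕ} {p : MvPolynomial τ L} (hp : p.IsHomogeneous k) :
    p ∈ Gs L τ s (2 * k + s) := fun α hα => by
  by_contra h
  exact hα (hp.coeff_eq_zero fun h' => h (by rw [h']))

theorem one_mem_Gs (s : ℕ) : (1 : MvPolynomial τ L) ∈ Gs L τ s s :=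
  Gs_shift (Gs_of_hom (s := 0) (isHomogeneous_one τ L)) (by omega)

variable {ι : Type} [LinearOrder ι] {C : Type u} [Ring C] [Algebra L C]
  [Algebra (MvPolynomial τ L) C] [IsScalarTower L (MvPolynomial τ L) C]

structure Cl (τ : Type) (L : Type u) [Field L] (ι : Type) [Fintype ι] (C : Type u) [Ring C]
    [Algebra (MvPolynomial τ L) C] where
  B : ι → ι → MvPolynomial τ L
  γ : ι → C
  hB : ∀ a b, (B a b).IsHomogeneous 1
  sq : ∀ a, γ a * γ a = algebraMap _ _ (B a a)
  sw : ∀ a b, γ a * γ b + γ b * γ a = algebraMap _ _ (B a b + B b a)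
  gen : Algebra.adjoin (MvPolynomial τ L) (Set.range γ) = ⊤
  rk : finrank (MvPolynomial τ L) C = Fintype.card (Finset ι)

namespace Cl

variable [Fintype ι] (K : Cl τ L ι C)

def gl (l : List ι) : C := (l.map K.γ).prod

def Gr (e : ℕ) (U : Set ι) : Submodule L C :=
  Submodule.span L {x | ∃ (l : List ι) (p : MvPolynomial τ L), l.Pairwise (· < ·) ∧
    (∀ a ∈ l, a ∈ U) ∧ p ∈ Gs L τ l.length e ∧ x = p • K.gl l}

theorem Gr_mono (e : ℕ) {U V : Set ι} (h : U ⊆ V) : K.Gr e U ≤ K.Gr e V :=
  Submodule.span_mono (by rintro _ ⟨l, p, h1, h2, h3, rfl⟩; exact ⟨l, p, h1, fun a ha => h (h2 a ha), h3, rfl⟩)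

theorem smul_mem_Gr {s e e' e'' : ℕ} {U : Set ι} {p : MvPolynomial τ L} (hp : p ∈ Gs L τ s e)
    {x : C} (hx : x ∈ K.Gr e' U) (h : e + e' = e'' + s) : p • x ∈ K.Gr e'' U := by
  induction hx using Submodule.span_induction with
  | mem x hx =>
    obtain ⟨l, q, h1, h2, h3, rfl⟩ := hx
    exact Submodule.subset_span ⟨l, p * q, h1, h2, Gs_mul hp h3 (by omega), by rw [mul_smul]⟩
  | zero => simp
  | add x y _ _ hx hy => rw [smul_add]; exact add_mem hx hy
  | smul c x _ hx => rw [smul_comm]; exact Submodule.smul_mem _ c hx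

theorem gl_mem {l : List ι} {U : Set ι} (h1 : l.Pairwise (· < ·)) (h2 : ∀ a ∈ l, a ∈ U) :
    K.gl l ∈ K.Gr l.length U :=
  Submodule.subset_span ⟨l, 1, h1, h2, one_mem_Gs _, by simp⟩

theorem small_mul {e : ℕ} {U : Set ι} {s : ι} (hs : ∀ a ∈ U, s < a) {x : C} (hx : x ∈ K.Gr e U) :
    K.γ s * x ∈ K.Gr (e + 1) (insert s U) := by
  induction hx using Submodule.span_induction with
  | mem x hx =>
    obtain ⟨l, q, h1, h2, h3, rfl⟩ := hx
    refine Submodule.subset_span ⟨s :: l, q, List.pairwise_cons.2 ⟨fun a ha => hs a (h2 a ha), h1⟩,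
      ?_, Gs_shift h3 (by simp; omega), by simp [gl]⟩
    intro a ha
    rcases List.mem_cons.1 ha with rfl | ha
    · simp
    · exact Or.inr (h2 a ha)
  | zero => simp
  | add x y _ _ hx hy => rw [mul_add]; exact add_mem hx hy
  | smul c x _ hx => rw [mul_smul_comm]; exact Submodule.smul_mem _ c hx

theorem γ_mul_gl (a : ι) : ∀ (l : List ι) (U : Set ι), l.Pairwise (· < ·) → (∀ x ∈ l, x ∈ U) →
    a ∈ U → K.γ a * K.gl l ∈ K.Gr (l.length + 1) U := by
  intro l
  induction l with
  | nil => intro U _ _ ha; simpa [gl] using K.gl_mem (l := [a]) (U := U) (by simp) (by simpa)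
  | cons s r ih =>
    intro U h1 h2 ha
    obtain ⟨h3, h4⟩ := List.pairwise_cons.1 h1
    have hr := K.gl_mem h4 fun x hx => h2 x (List.mem_cons_of_mem _ hx)
    have hB : ∀ q : MvPolynomial τ L, q.IsHomogeneous 1 →
        algebraMap _ C q * K.gl r ∈ K.Gr ((s :: r).length + 1) U := fun q hq => by
      rw [← Algebra.smul_def]
      exact K.smul_mem_Gr (Gs_of_hom (s := 0) hq) hr (by simp; omega)
    rcases lt_trichotomy a s with h | rfl | h
    · exact K.gl_mem (l := a :: s :: r) (List.pairwise_cons.2 ⟨fun x hx => by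
        rcases List.mem_cons.1 hx with rfl | hx
        · exact h
        · exact h.trans (h3 x hx), h1⟩) (fun x hx => by
        rcases List.mem_cons.1 hx with rfl | hx
        · exact ha
        · exact h2 x hx)
    · have : K.γ a * K.gl (a :: r) = algebraMap _ C (K.B a a) * K.gl r := by
        rw [← K.sq, mul_assoc]; simp [gl]
      rw [this]; exact hB _ (K.hB _ _)
    · have : K.γ a * K.gl (s :: r) =
          algebraMap _ C (K.B a s + K.B s a) * K.gl r - K.γ s * (K.γ a * K.gl r) := by
        rw [← K.sw, add_mul]; simp [gl, mul_assoc]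
      rw [this]
      refine sub_mem (hB _ ((K.hB _ _).add (K.hB _ _))) ?_
      have h5 := ih {x ∈ U | s < x} h4
        (fun x hx => ⟨h2 x (List.mem_cons_of_mem _ hx), h3 x hx⟩) ⟨ha, h⟩
      refine K.Gr_mono _ ?_ (K.small_mul (fun x hx => hx.2) h5)
      rintro x (rfl | hx)
      · exact h2 _ (by simp)
      · exact hx.1

abbrev F (e : ℕ) : Submodule L C := K.Gr e Set.univ

theorem γ_mul_mem (a : ι) {e : ℕ} {x : C} (hx : x ∈ K.F e) : K.γ a * x ∈ K.F (e + 1) := by
  induction hx using Submodule.span_induction with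
  | mem x hx =>
    obtain ⟨l, q, h1, h2, h3, rfl⟩ := hx
    rw [mul_smul_comm]
    exact K.smul_mem_Gr h3 (K.γ_mul_gl a l _ h1 h2 trivial) (by omega)
  | zero => simp
  | add x y _ _ hx hy => rw [mul_add]; exact add_mem hx hy
  | smul c x _ hx => rw [mul_smul_comm]; exact Submodule.smul_mem _ c hx

theorem mul_mem {e e' : ℕ} {x y : C} (hx : x ∈ K.F e) (hy : y ∈ K.F e') :
    x * y ∈ K.F (e + e') := by
  have key : ∀ l : List ι, K.gl l * y ∈ K.F (e' + l.length) := by
    intro l
    induction l with
    | nil => simpa [gl] using hy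
    | cons a l ih =>
      have := K.γ_mul_mem a ih
      simpa [gl, mul_assoc, add_assoc] using this
  induction hx using Submodule.span_induction with
  | mem x hx =>
    obtain ⟨l, q, -, -, h3, rfl⟩ := hx
    rw [smul_mul_assoc]
    exact K.smul_mem_Gr h3 (key l) (by omega)
  | zero => simp
  | add x y _ _ hx hy => rw [add_mul]; exact add_mem hx hy
  | smul c x _ hx => rw [smul_mul_assoc]; exact Submodule.smul_mem _ c hx

theorem one_mem : (1 : C) ∈ K.F 0 := by simpa [gl] using K.gl_mem (l := []) (U := Set.univ)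

theorem mem_iSup (x : C) : x ∈ ⨆ e, K.F e := by
  have hx : x ∈ Algebra.adjoin (MvPolynomial τ L) (Set.range K.γ) := by rw [K.gen]; trivial
  induction hx using Algebra.adjoin_induction with
  | mem x hx =>
    obtain ⟨a, rfl⟩ := hx
    exact Submodule.mem_iSup_of_mem 1 (by simpa using K.γ_mul_mem a K.one_mem)
  | algebraMap p =>
    rw [← sum_homogeneousComponent p, map_sum]
    refine Submodule.sum_mem _ fun k _ => Submodule.mem_iSup_of_mem (2 * k) ?_
    rw [Algebra.algebraMap_eq_smul_one]
    exact K.smul_mem_Gr (Gs_of_hom (s := 0) (homogeneousComponent_isHomogeneous k p)) K.one_mem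
      (by omega)
  | add x y _ _ hx hy => exact add_mem hx hy
  | mul x y h1 h2 hx hy =>
    clear h1 h2
    induction hx using Submodule.iSup_induction' with
    | mem e x hx =>
      induction hy using Submodule.iSup_induction' with
      | mem e' y hy => exact Submodule.mem_iSup_of_mem _ (K.mul_mem hx hy)
      | zero => simp
      | add y z _ _ h h' => rw [mul_add]; exact add_mem h h'
    | zero => simp
    | add y z _ _ h h' => rw [add_mul]; exact add_mem h h'

def gs (S : Finset ι) : C := K.gl S.sort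

theorem gl_eq {l : List ι} (h : l.Pairwise (· < ·)) : K.gl l = K.gs l.toFinset := by
  rw [gs, (List.toFinset_sort _ h.nodup).2 (h.imp le_of_lt)]

noncomputable def bas : Basis (Finset ι) (MvPolynomial τ L) C :=
  basisOfTopLeSpanOfCardEqFinrank K.gs (by
    intro x _
    have hx := K.mem_iSup x
    induction hx using Submodule.iSup_induction' with
    | mem e x hx =>
      induction hx using Submodule.span_induction with
      | mem x hx =>
        obtain ⟨l, q, h1, -, -, rfl⟩ := hx
        rw [K.gl_eq h1]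
        exact Submodule.smul_mem _ _ (Submodule.subset_span ⟨_, rfl⟩)
      | zero => simp
      | add x y _ _ hx hy => exact add_mem (hx trivial) (hy trivial)
      | smul c x _ hx => exact Submodule.smul_of_tower_mem _ c (hx trivial)
    | zero => simp
    | add y z _ _ h h' => exact add_mem (h trivial) (h' trivial)) K.rk.symm

theorem bas_apply (S : Finset ι) : K.bas S = K.gs S := by simp [bas]

theorem repr_mem {e : ℕ} {x : C} (hx : x ∈ K.F e) (S : Finset ι) :
    K.bas.repr x S ∈ Gs L τ S.card e := by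
  induction hx using Submodule.span_induction with
  | mem x hx =>
    obtain ⟨l, q, h1, -, h3, rfl⟩ := hx
    rw [K.gl_eq h1, ← bas_apply, map_smul, Basis.repr_self, Finsupp.smul_single,
      Finsupp.single_apply]
    split_ifs with h
    · rw [← h, List.toFinset_card_of_nodup h1.nodup]; simpa using h3
    · exact zero_mem _
  | zero => simp
  | add x y _ _ hx hy => rw [map_add]; exact add_mem hx hy
  | smul c x _ hx =>
    rw [← algebraMap_smul (MvPolynomial τ L), map_smul, Finsupp.smul_apply, algebraMap_smul]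
    exact Submodule.smul_mem _ c hx

theorem indep {E : ℕ} {x : C} (hx : x ∈ K.F E) (hx' : x ∈ ⨆ e < E, K.F e) : x = 0 := by
  apply K.bas.repr.injective
  ext1 S
  have h1 := prG_of_mem (e' := E) (K.repr_mem hx S)
  rw [if_pos rfl] at h1
  rw [← h1, map_zero, Finsupp.zero_apply]
  clear h1 hx
  induction hx' using Submodule.iSup_induction' with
  | mem e x hx =>
    by_cases he : e < E
    · rw [iSup_pos he] at hx
      rw [prG_of_mem (K.repr_mem hx S), if_neg he.ne]
    · rw [iSup_neg he, Submodule.mem_bot] at hx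
      simp [hx]
  | zero => simp
  | add y z _ _ h h' => simp [h, h']

theorem noeth [Finite τ] : NoethOn (M := fun _ => C)
    (fun a _ => LinearMap.mulLeft L (algebraMap (MvPolynomial τ L) C (X a))) K.F :=
  noethOn_of_maps (M := fun _ => C) (M' := fun _ => MvPolynomial τ L) _
    (fun a _ => LinearMap.mulLeft L (X a)) _ (fun S : Finset ι => Gs L τ S.card)
    (fun S _ => (K.bas.coord S).restrictScalars L)
    (fun S a d x => by simp [← Algebra.smul_def]) (fun S d x hx => K.repr_mem hx S)
    (fun d x _ h => K.bas.repr.injective (by ext1 S; simpa using h S)) fun S => noethOn_Gs _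

noncomputable def ew (φ : ι ≃ τ) (w : τ →₀ ℕ) : C :=
  (monomial (w.mapRange (· / 2) (by simp)) (1 : L)) •
    K.gs (Finset.univ.filter fun a => w (φ a) % 2 = 1)

theorem F_le [Fintype τ] [DecidableEq τ] [DecidableEq C] (φ : ι ≃ τ) (e : ℕ) : K.F e ≤ Submodule.span L
    ((Finset.finsuppAntidiag Finset.univ e).image (K.ew φ) : Finset C) := by
  classical
  refine Submodule.span_le.2 ?_
  rintro _ ⟨l, q, h1, -, h3, rfl⟩
  rw [K.gl_eq h1, q.as_sum, Finset.sum_smul]
  refine Submodule.sum_mem _ fun α hα => ?_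
  have h4 := h3 α (MvPolynomial.mem_support_iff.1 hα)
  rw [← mul_one (coeff α q), ← smul_eq_mul, ← smul_monomial, smul_assoc]
  refine Submodule.smul_mem _ _ (Submodule.subset_span ?_)
  rw [Finset.coe_image]
  refine ⟨Finsupp.equivFunOnFinite.symm fun x => 2 * α x + if φ.symm x ∈ l.toFinset then 1 else 0,
    ?_, ?_⟩
  · rw [Finset.mem_coe, mem_anti, Finsupp.degree_eq_sum]
    simp only [Finsupp.coe_equivFunOnFinite_symm, Finset.sum_add_distrib, ← Finset.mul_sum]
    rw [← Finsupp.degree_eq_sum, ← h4, ← List.toFinset_card_of_nodup h1.nodup,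
      ← φ.sum_comp]
    simp only [Equiv.symm_apply_apply, Finset.sum_boole, Nat.cast_id, add_right_inj]
    congr 1
    ext; simp
  · unfold ew
    congr 1
    · congr 2
      ext x
      simp only [Finsupp.mapRange_apply, Finsupp.coe_equivFunOnFinite_symm]
      split_ifs <;> omega
    · congr 1
      ext a
      simp only [Finset.mem_filter, Finset.mem_univ, true_and, Finsupp.coe_equivFunOnFinite_symm,
        Equiv.symm_apply_apply]
      split_ifs with h
      · simp [h]
      · simp [h]

theorem fd [Fintype τ] (φ : ι ≃ τ) (e : ℕ) : FiniteDimensional L (K.F e) := by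
  classical
  exact Submodule.finiteDimensional_of_le (K.F_le φ e)

theorem finrank_F_le [Fintype τ] (φ : ι ≃ τ) {m : ℕ} (hm : Fintype.card τ = m + 1) (e : ℕ) :
    finrank L (K.F e) ≤ (m + e).choose m := by
  classical
  refine (Submodule.finrank_mono (K.F_le φ e)).trans ((finrank_span_finset_le_card _).trans
    (Finset.card_image_le.trans ?_))
  rw [Finset.card_finsuppAntidiag_nat_eq_choose, Finset.card_univ, hm,
    show m + 1 + e - 1 = m + e by omega, Nat.choose_symm_add]

include K in
theorem lower [Fintype τ] {m : ℕ} (hm : Fintype.card τ = m + 1) {a : C} (ha : a ≠ 0) (k : ℕ)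
    (N : Submodule L C) [FiniteDimensional L N]
    (h : ∀ p : MvPolynomial τ L, p.IsHomogeneous k → p • a ∈ N) :
    (m + k).choose m ≤ finrank L N := by
  rw [← finrank_Sd (L := L) hm]
  have := Module.Free.of_basis K.bas
  refine LinearMap.finrank_le_finrank_of_injective
    (f := ((LinearMap.toSpanSingleton (MvPolynomial τ L) C a).restrictScalars L).restrict
      (p := Sd τ L k) (q := N) fun p hp => h p hp) fun p q hpq => ?_
  have h2 : (p : MvPolynomial τ L) • a = (q : MvPolynomial τ L) • a := congrArg Subtype.val hpq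
  exact Subtype.ext (smul_left_injective _ ha h2)

end Cl

end Vale.Agent.P200
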