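import Vale.Agent.P200.Homot

open Module TensorProduct

namespace Vale.Agent.P200

universe u

variable {L : Type u} [Field L] {σ : Type} {c : ℕ}

def IsP (m : ℕ) (H : PowerSeries ℤ) : Prop :=
  ∃ q : Polynomial ℤ, (1 - PowerSeries.X) ^ m * H = (q : PowerSeries ℤ)

open PowerSeries in
theorem euler (m : ℕ) (h : ℤ⟦X⟧) (η β : ℕ → ℤ⟦X⟧) (hη : ∀ j, IsP m (η j)) (h0 : β 0 = 0)
    (h1 : β (c + 1) = 0)
    (hs : ∀ j, X * ((c.choose j : ℤ⟦X⟧) * h) = X * η j + X * β j + β (j + 1)) :
    IsP (m + c) h := by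
  have key : ∀ k, ∃ E, IsP m E ∧ X * ((∑ j ∈ Finset.range k,
      (-1) ^ j * X ^ (k - 1 - j) * (c.choose j : ℤ⟦X⟧)) * h - E) = (-1) ^ (k + 1) * β k := by
    intro k
    induction k with
    | zero => exact ⟨0, ⟨0, by simp⟩, by simp [h0]⟩
    | succ k ih =>
      obtain ⟨E, ⟨q, hq⟩, hE⟩ := ih
      obtain ⟨q', hq'⟩ := hη k
      refine ⟨X * E + (-1) ^ k * η k, ⟨Polynomial.X * q + (-1) ^ k * q', ?_⟩, ?_⟩
      · rw [mul_add, mul_left_comm, hq, mul_left_comm, hq']; simp
      · have e : ∑ j ∈ Finset.range (k + 1), (-1) ^ j * X ^ (k + 1 - 1 - j) * (c.choose j : ℤ⟦X⟧) =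
            X * (∑ j ∈ Finset.range k, (-1) ^ j * X ^ (k - 1 - j) * (c.choose j : ℤ⟦X⟧)) +
              (-1) ^ k * (c.choose k : ℤ⟦X⟧) := by
          rw [Finset.sum_range_succ, Finset.mul_sum]
          congr 1
          · refine Finset.sum_congr rfl fun j hj => ?_
            rw [show k + 1 - 1 - j = (k - 1 - j) + 1 by simp at hj; omega]; ring
          · simp
        rw [e]
        linear_combination X * hE + (-1) ^ k * hs k
  obtain ⟨E, ⟨q, hq⟩, hE⟩ := key (c + 1)
  rw [h1, mul_zero, mul_eq_zero, or_iff_right X_ne_zero, sub_eq_zero] at hE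
  have e : (∑ j ∈ Finset.range (c + 1), (-1) ^ j * X ^ (c + 1 - 1 - j) * (c.choose j : ℤ⟦X⟧)) =
      (-1 + X) ^ c := by rw [add_pow]; rfl
  rw [e] at hE
  refine ⟨(-1) ^ c * q, ?_⟩
  rw [pow_add, mul_assoc, show (1 - X : ℤ⟦X⟧) ^ c = (-1) ^ c * (-1 + X) ^ c by
    rw [← mul_pow]; congr 1; ring, mul_assoc, hE, mul_left_comm, hq]
  simp

theorem Setup.Dd_lT (U : Setup L σ c) {Q0 Q1 Q0' Q1' : Type u} [AddCommGroup Q0] [Module L Q0]
    [AddCommGroup Q1] [Module L Q1] [AddCommGroup Q0'] [Module L Q0'] [AddCommGroup Q1']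
    [Module L Q1'] (Γ : Fin c → Q0 →ₗ[L] Q1) (Γ' : Fin c → Q0' →ₗ[L] Q1') (φ : Q0 →ₗ[L] Q0')
    (ψ : Q1 →ₗ[L] Q1') (h : ∀ k v, Γ' k (φ v) = ψ (Γ k v)) (j : ℕ) (x : U.Ap j ⊗[L] Q0) :
    U.Dd Γ' j (φ.lTensor _ x) = ψ.lTensor _ (U.Dd Γ j x) := by
  induction x with
  | zero => simp
  | tmul s q => simp [Setup.Dd, h]
  | add x y hx hy => simp [hx, hy]

def PolyStmt (U : Setup L σ c) (b : ℕ) : Prop := ∀ (M : ℕ → Type u) [∀ d, AddCommGroup (M d)]
    [∀ d, Module L (M d)] [∀ d, FiniteDimensional L (M d)]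
    (t : Fin b × Fin c → ∀ d, M d →ₗ[L] M (d + 2)) (Γ : Fin b × Fin c → ∀ d, M d →ₗ[L] M (d + 1)),
    (∀ a x d v, Γ x (d + 2) (t a d v) = t a (d + 1) (Γ x d v)) →
    (∀ i d, U.Rel (fun k => Γ (i, k) d) (fun k => Γ (i, k) (d + 1)) (fun k => t (i, k) d)) →
    (∀ x y d v, x.1 ≠ y.1 → Γ x (d + 1) (Γ y d v) + Γ y (d + 1) (Γ x d v) = 0) →
    NoethOn t (fun _ => ⊤) →
    IsP (b * c) (PowerSeries.mk fun d => (finrank L (M d) : ℤ))

theorem poly_SQ (U : Setup L σ c) {b : ℕ} (ih : PolyStmt U b) {τ : Type} (M : ℕ → Type u)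
    [∀ d, AddCommGroup (M d)] [∀ d, Module L (M d)]
    (t : τ → ∀ d, M d →ₗ[L] M (d + 2)) (e : Fin b × Fin c → τ)
    (Γ : Fin b × Fin c → ∀ d, M d →ₗ[L] M (d + 1))
    (hc : ∀ a x d v, Γ x (d + 2) (t a d v) = t a (d + 1) (Γ x d v))
    (hr : ∀ i d, U.Rel (fun k => Γ (i, k) d) (fun k => Γ (i, k) (d + 1)) (fun k => t (e (i, k)) d))
    (ha : ∀ x y d v, x.1 ≠ y.1 → Γ x (d + 1) (Γ y d v) + Γ y (d + 1) (Γ x d v) = 0)
    (Z B : ∀ d, Submodule L (M d)) [∀ d, FiniteDimensional L (Z d)]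
    (hZ : Stab t Z) (hB : Stab t B)
    (hZG : ∀ a d, ∀ x ∈ Z d, Γ a d x ∈ Z (d + 1)) (hBG : ∀ a d, ∀ x ∈ B d, Γ a d x ∈ B (d + 1))
    (hk : ∀ a, (∃ a', e a' = a) ∨ ∀ d, ∀ x ∈ Z d, t a d x ∈ B (d + 2))
    (hN : NoethOn t Z) :
    IsP (b * c) (PowerSeries.mk fun d => (finrank L (SQ (Z d) (B d)) : ℤ)) := by
  refine ih (fun d => SQ (Z d) (B d)) (fun a d => indu (t (e a) d) (hZ _ d) (hB _ d))
    (fun a d => indu (Γ a d) (hZG a d) (hBG a d)) ?_ ?_ ?_ (noeth_SQ t Z B hZ hB e hk hN)
  · intro a x d v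
    obtain ⟨v, rfl⟩ := Submodule.Quotient.mk_surjective _ v
    simp only [indu_mk]
    congr 2
    exact hc _ _ _ _
  · intro i d
    constructor
    · intro k v
      obtain ⟨v, rfl⟩ := Submodule.Quotient.mk_surjective _ v
      simp only [indu_mk, ← Submodule.Quotient.mk_smul]
      simp only [← Submodule.mkQ_apply, ← map_sum]
      congr 1
      apply Subtype.ext
      simpa using (hr i d).1 k v
    · intro k l v
      obtain ⟨v, rfl⟩ := Submodule.Quotient.mk_surjective _ v
      simp only [indu_mk, ← Submodule.Quotient.mk_smul, ← Submodule.Quotient.mk_add]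
      simp only [← Submodule.mkQ_apply, ← map_sum]
      congr 1
      apply Subtype.ext
      simpa using (hr i d).2 k l v
  · intro x y d v hxy
    obtain ⟨v, rfl⟩ := Submodule.Quotient.mk_surjective _ v
    simp only [indu_mk, ← Submodule.Quotient.mk_add]
    rw [← Submodule.Quotient.mk_zero]
    congr 1
    apply Subtype.ext
    simpa using ha x y d v hxy

theorem poly_step (U : Setup L σ c) {b : ℕ} (ih : PolyStmt U b) {τ : Type} (h : ℕ → ℕ)
    (N : ℕ → ℕ → Type u) [∀ j d, AddCommGroup (N j d)] [∀ j d, Module L (N j d)]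
    [∀ j d, FiniteDimensional L (N j d)]
    (D : ∀ j d, N j d →ₗ[L] N (j + 1) (d + 1))
    (T : ∀ j, τ → ∀ d, N j d →ₗ[L] N j (d + 2)) (e : Fin b × Fin c → τ)
    (G : ∀ j, Fin b × Fin c → ∀ d, N j d →ₗ[L] N j (d + 1))
    (hc : ∀ j a x d v, G j x (d + 2) (T j a d v) = T j a (d + 1) (G j x d v))
    (hr : ∀ j i d, U.Rel (fun k => G j (i, k) d) (fun k => G j (i, k) (d + 1))
      (fun k => T j (e (i, k)) d))
    (ha : ∀ j x y d v, x.1 ≠ y.1 → G j x (d + 1) (G j y d v) + G j y (d + 1) (G j x d v) = 0)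
    (hDT : ∀ j a d x, D j (d + 2) (T j a d x) = T (j + 1) a (d + 1) (D j d x))
    (hDG : ∀ j a d x, D j (d + 1) (G j a d x) + G (j + 1) a (d + 1) (D j d x) = 0)
    (hDD : ∀ j d x, D (j + 1) (d + 1) (D j d x) = 0)
    (hk : ∀ a, (∃ a', e a' = a) ∨ ∀ j d x, D (j + 1) d x = 0 →
      T (j + 1) a d x ∈ LinearMap.range (D j (d + 1)))
    (hN : ∀ j, NoethOn (T j) fun _ => ⊤) (h0 : ∀ d, finrank L (N 0 d) = 0)
    (h1 : ∀ j d, finrank L (N (j + 1) d) = c.choose j * h d) :
    IsP (b * c + c) (PowerSeries.mk fun d => (h d : ℤ)) := by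
  let Z : ∀ j d, Submodule L (N j d) := fun j d => LinearMap.ker (D j d)
  let B : ∀ j d, Submodule L (N (j + 1) d) := fun j d =>
    match d with
    | 0 => ⊥
    | d + 1 => LinearMap.range (D j d)
  have hBZ : ∀ j d, B j d ≤ Z (j + 1) d := fun j d => by
    cases d with
    | zero => exact bot_le
    | succ d => rintro _ ⟨y, rfl⟩; exact hDD j d y
  have hH : ∀ j, IsP (b * c)
      (PowerSeries.mk fun d => (finrank L (SQ (Z (j + 1) d) (B j d)) : ℤ)) := by
    intro j
    refine poly_SQ U ih (N (j + 1)) (T (j + 1)) e (G (j + 1)) (hc _) (hr _) (ha _) (Z (j + 1))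
      (B j) ?_ ?_ ?_ ?_ ?_ ((hN _).mono fun _ => le_top)
    · intro a d x hx
      have : D (j + 1) d x = 0 := hx
      show D (j + 1) (d + 2) _ = 0
      rw [hDT, this, map_zero]
    · intro a d x hx
      cases d with
      | zero => rw [(Submodule.mem_bot L).1 hx, map_zero]; exact zero_mem _
      | succ d => obtain ⟨y, rfl⟩ := hx; exact ⟨_, hDT j a d y⟩
    · intro a d x hx
      have : D (j + 1) d x = 0 := hx
      show D (j + 1) (d + 1) _ = 0
      simpa [this] using hDG (j + 1) a d x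
    · intro a d x hx
      cases d with
      | zero => rw [(Submodule.mem_bot L).1 hx, map_zero]; exact zero_mem _
      | succ d =>
        obtain ⟨y, rfl⟩ := hx
        exact ⟨-G j a d y, by rw [map_neg]; exact neg_eq_of_add_eq_zero_right (hDG j a d y)⟩
    · intro a
      exact (hk a).imp id fun h d x hx => h j d x hx
  refine euler (b * c) _ _ (fun j => PowerSeries.mk fun d => (finrank L (B j d) : ℤ)) hH ?_ ?_ ?_
  · ext d
    cases d with
    | zero => simp [B]
    | succ d =>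
      have h1 := h0 d
      have h2 := LinearMap.finrank_range_le (D 0 d)
      have h3 : finrank L (B 0 (d + 1)) = finrank L (LinearMap.range (D 0 d)) := rfl
      simp only [PowerSeries.coeff_mk, map_zero]
      omega
  · ext d
    have h1 := h1 (c + 1) d
    rw [Nat.choose_succ_self, zero_mul] at h1
    have h2 := Submodule.finrank_le (B (c + 1) d)
    simp only [PowerSeries.coeff_mk, map_zero]
    omega
  · intro j
    ext d
    cases d with
    | zero => simp [B]
    | succ d =>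
      have h1' := finrank_SQ (Z (j + 1) d) (B j d) (hBZ j d)
      have h2 := LinearMap.finrank_range_add_finrank_ker (D (j + 1) d)
      rw [h1] at h2
      simp only [map_add, PowerSeries.coeff_succ_X_mul, PowerSeries.coeff_mk]
      rw [← nsmul_eq_mul, map_nsmul, PowerSeries.coeff_mk]
      have h3 : finrank L (B (j + 1) (d + 1)) = finrank L (LinearMap.range (D (j + 1) d)) := rfl
      have h4 : finrank L (Z (j + 1) d) = finrank L (LinearMap.ker (D (j + 1) d)) := rfl
      rw [nsmul_eq_mul]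
      zify at h1' h2 h3 h4
      linarith

theorem noeth_tensor {τ : Type} (W : Type u) [AddCommGroup W] [Module L W] [FiniteDimensional L W]
    (M : ℕ → Type u) [∀ d, AddCommGroup (M d)] [∀ d, Module L (M d)]
    (t : τ → ∀ d, M d →ₗ[L] M (d + 2)) (hN : NoethOn t fun _ => ⊤) :
    NoethOn (L := L) (M := fun d => W ⊗[L] M d) (fun a d => (t a d).lTensor W) fun _ => ⊤ := by
  let e := Module.finBasis L W
  refine noethOn_of_maps (L := L) (M := fun d => W ⊗[L] M d) _ t _ (fun _ _ => ⊤)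
    (fun r d => con (e.coord r) ∘ₗ (TensorProduct.comm L _ _).toLinearMap) ?_
    (fun _ _ _ _ => trivial) ?_ fun _ => hN
  · intro r a d x
    induction x with
    | zero => simp
    | tmul s q => simp
    | add x y hx hy => simp only [map_add, hx, hy]
  · intro d x _ hx
    apply (TensorProduct.comm L _ _).injective
    rw [sum_con e (TensorProduct.comm L _ _ x), map_zero]
    refine Finset.sum_eq_zero fun r _ => ?_
    have := hx r
    simp only [LinearMap.comp_apply, LinearEquiv.coe_coe] at this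
    rw [this, zero_tmul]

theorem Setup.Rel.lT {U : Setup L σ c} (W : Type u) [AddCommGroup W] [Module L W]
    {Q0 Q1 Q2 : Type u} [AddCommGroup Q0] [Module L Q0]
    [AddCommGroup Q1] [Module L Q1] [AddCommGroup Q2] [Module L Q2]
    {Γ : Fin c → Q0 →ₗ[L] Q1} {Γ' : Fin c → Q1 →ₗ[L] Q2} {t : Fin c → Q0 →ₗ[L] Q2}
    (h : U.Rel Γ Γ' t) :
    U.Rel (fun k => (Γ k).lTensor W) (fun k => (Γ' k).lTensor W) fun k => (t k).lTensor W := by
  constructor
  · intro k w
    induction w with
    | zero => simp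
    | tmul s q => simp [h.1 k q, tmul_sum]
    | add x y hx hy => simp [hx, hy, Finset.sum_add_distrib]
  · intro k l w
    induction w with
    | zero => simp
    | tmul s q =>
      simp only [LinearMap.lTensor_tmul, ← tmul_add]
      rw [h.2 k l q]
      simp [tmul_sum]
    | add x y hx hy =>
      simp only [map_add, smul_add, Finset.sum_add_distrib, ← hx, ← hy]
      abel

theorem poly [Finite σ] (U : Setup L σ c) (b : ℕ) : PolyStmt U b := by
  induction b with
  | zero =>
    intro M _ _ _ t Γ _ _ _ hN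
    obtain ⟨d0, h0⟩ := hN (fun _ => ⊤) (fun _ => le_rfl) (fun _ _ _ _ => trivial)
    refine ⟨PowerSeries.trunc (d0 + 2) (PowerSeries.mk fun d => (finrank L (M d) : ℤ)), ?_⟩
    ext d
    rw [zero_mul, pow_zero, one_mul, Polynomial.coeff_coe, PowerSeries.coeff_trunc]
    split_ifs with h
    · rfl
    · obtain ⟨e, rfl⟩ : ∃ e, d = e + 2 := ⟨d - 2, by omega⟩
      have := h0 e (by omega)
      rw [iSup_of_empty] at this
      have h2 : (⊤ : Submodule L (M (e + 2))) = ⊥ := le_bot_iff.1 this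
      rw [PowerSeries.coeff_mk, ← finrank_top, h2, finrank_bot]; rfl
  | succ b ih =>
    intro M _ _ _ t Γ hc hr ha hN
    rw [add_mul, one_mul]
    refine poly_step U ih (fun d => finrank L (M d)) (fun j d => U.Ap j ⊗[L] M d)
      (fun j d => U.Dd (fun k => Γ (0, k) d) j) (fun j a d => (t a d).lTensor _)
      (fun a => (a.1.succ, a.2)) (fun j a d => (Γ (a.1.succ, a.2) d).lTensor _)
      ?_ (fun j i d => (hr i.succ d).lT _) ?_
      (fun j a d x => U.Dd_lT _ _ _ _ (fun k v => hc a (0, k) d v) j x) ?_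
      (fun j d x => U.Dd_Dd (hr 0 d) j x) ?_ (fun j => noeth_tensor _ M t hN) ?_ ?_
    · intro j a x d v
      induction v with
      | zero => simp
      | tmul s q => simp [hc]
      | add x y hx hy => simp only [map_add, hx, hy]
    · intro j x y d v hxy
      induction v with
      | zero => simp
      | tmul s q =>
        simp only [LinearMap.lTensor_tmul, ← tmul_add]
        rw [ha _ _ d q fun h => hxy (Fin.succ_injective _ h), tmul_zero]
      | add x y hx hy =>
        simp only [map_add]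
        rw [add_add_add_comm, hx, hy, add_zero]
    · intro j a d v
      induction v with
      | zero => simp
      | tmul s q =>
        simp only [Setup.Dd, LinearMap.lTensor_tmul, LinearMap.sum_apply, map_tmul, map_sum,
          ← Finset.sum_add_distrib, ← tmul_add]
        refine Finset.sum_eq_zero fun k _ => ?_
        rw [ha (0, k) (a.1.succ, a.2) d q (Fin.succ_ne_zero _).symm, tmul_zero]
      | add x y hx hy =>
        simp only [map_add]
        rw [add_add_add_comm, hx, hy, add_zero]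
    · rintro ⟨i, k⟩
      cases i using Fin.cases with
      | zero => exact Or.inr fun j d x hx => U.homotopy (hr 0 d) j x hx k
      | succ i => exact Or.inl ⟨(i, k), rfl⟩
    · intro d
      rw [Module.finrank_tensorProduct, U.Ap_zero, finrank_bot, zero_mul]
    · intro j d
      rw [Module.finrank_tensorProduct, U.finrank_Ap]

end Vale.Agent.P200
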