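import Vale.Agent.P200.Cliff
import Vale.Agent.P200.Poly

open Module MvPolynomial TensorProduct

namespace Vale.Agent.P200

universe u

variable {L : Type u} [Field L] {τ : Type}

section
variable {ι : Type} [LinearOrder ι] {C : Type u} [Ring C] [Algebra L C]
  [Algebra (MvPolynomial τ L) C] [IsScalarTower L (MvPolynomial τ L) C]
  [Fintype ι] (K : Cl τ L ι C) [Fintype τ] (φ : ι ≃ τ) {m : ℕ} (hm : Fintype.card τ = m + 1)
  (hpoly : ∀ N : ℕ → Submodule L C, (∀ e, N e ≤ K.F e) →
    (∀ a e, ∀ x ∈ N e, algebraMap (MvPolynomial τ L) C (X a) * x ∈ N (e + 2)) →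
    (∀ a e, ∀ x ∈ N e, K.γ a * x ∈ N (e + 1)) →
    IsP (m + 1) (PowerSeries.mk fun e => (finrank L (N e) : ℤ)))

include φ hm hpoly

theorem Cl.hom_nzd {e0 e1 : ℕ} {a z : C} (ha : a ∈ K.F e0) (hz : z ∈ K.F e1) (h : z * a = 0)
    (ha0 : a ≠ 0) : z = 0 := by
  by_contra hz0
  have := K.fd φ
  have hX : ∀ a e, ∀ x ∈ K.F e, algebraMap (MvPolynomial τ L) C (X a) * x ∈ K.F (e + 2) := by
    intro a e x hx
    rw [← Algebra.smul_def]
    exact K.smul_mem_Gr (Gs_of_hom (s := 0) (isHomogeneous_X L a)) hx (by omega)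
  obtain ⟨q, hq⟩ := hpoly K.F (fun _ => le_rfl) hX fun a e x hx => K.γ_mul_mem a hx
  obtain ⟨q', hq'⟩ := hpoly (fun e => K.F e ⊓ LinearMap.ker (LinearMap.mulRight L a))
    (fun _ => inf_le_left)
    (fun b e x hx => ⟨hX b e x hx.1, by
      have : x * a = 0 := hx.2
      show _ * x * a = 0
      rw [mul_assoc, this, mul_zero]⟩)
    (fun b e x hx => ⟨K.γ_mul_mem b hx.1, by
      have : x * a = 0 := hx.2
      show _ * x * a = 0
      rw [mul_assoc, this, mul_zero]⟩)
  have r1 : HasR (m + 1) _ _ := ⟨q, hq, rfl⟩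
  have r2 : HasR (m + 1) _ _ := ⟨q', hq', rfl⟩
  have a1 := r1.le_one fun d => by
    rw [PowerSeries.coeff_mk]; exact_mod_cast K.finrank_F_le φ hm d
  have a2 := r2.one_le e1 (fun d => by rw [PowerSeries.coeff_mk]; positivity) fun k => by
    rw [PowerSeries.coeff_mk]
    have := K.lower hm hz0 k (K.F (e1 + 2 * k) ⊓ LinearMap.ker (LinearMap.mulRight L a)) (by
      intro p hp
      refine ⟨K.smul_mem_Gr (Gs_of_hom (s := 0) hp) hz (by omega), ?_⟩
      show p • z * a = 0
      rw [smul_mul_assoc, h, smul_zero])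
    exact_mod_cast this
  have key : ∀ d, (PowerSeries.coeff d) ((PowerSeries.mk fun e => (finrank L (K.F e) : ℤ)) -
      PowerSeries.mk fun e => (finrank L ↥(K.F e ⊓ LinearMap.ker (LinearMap.mulRight L a)) : ℤ)) =
      finrank L ((K.F d).map (LinearMap.mulRight L a)) := fun d => by
    rw [map_sub, PowerSeries.coeff_mk, PowerSeries.coeff_mk,
      ← finrank_map_add (LinearMap.mulRight L a) (K.F d)]
    push_cast; ring
  have a3 := (r1.sub r2).one_le 0 (fun d => by rw [key]; positivity) fun k => by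
    rw [key]
    have := K.lower hm ha0 k ((K.F (0 + 2 * k)).map (LinearMap.mulRight L a)) (by
      intro p hp
      exact ⟨p • 1, K.smul_mem_Gr (Gs_of_hom (s := 0) hp) K.one_mem (by omega), by simp⟩)
    exact_mod_cast this
  omega

omit φ hm hpoly [Fintype τ] in
theorem Cl.top_part {a : C} (ha : a ≠ 0) :
    ∃ e, ∃ x ∈ K.F e, x ≠ 0 ∧ a - x ∈ ⨆ e' < e, K.F e' := by
  classical
  have hex : ∃ E, a ∈ ⨆ e' < E, K.F e' := by
    have hx := K.mem_iSup a
    clear ha
    induction hx using Submodule.iSup_induction' with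
    | mem e x hx => exact ⟨e + 1, Submodule.mem_iSup_of_mem e (Submodule.mem_iSup_of_mem (by omega) hx)⟩
    | zero => exact ⟨0, zero_mem _⟩
    | add y z _ _ h h' =>
      obtain ⟨E, h⟩ := h
      obtain ⟨E', h'⟩ := h'
      have hm : ∀ E1 ≤ max E E', (⨆ e' < E1, K.F e') ≤ ⨆ e' < max E E', K.F e' :=
        fun E1 h1 => biSup_mono fun e he => lt_of_lt_of_le he h1
      exact ⟨max E E', add_mem (hm _ (le_max_left _ _) h) (hm _ (le_max_right _ _) h')⟩
  have h1 := Nat.find_spec hex
  rcases hE : Nat.find hex with _ | e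
  · rw [hE] at h1; simp at h1; exact absurd h1 ha
  · rw [hE, Nat.iSup_lt_succ] at h1
    obtain ⟨y, hy, x, hx, rfl⟩ := Submodule.mem_sup.1 h1
    refine ⟨e, x, hx, ?_, by simpa using hy⟩
    rintro rfl
    exact Nat.find_min hex (m := e) (by omega) (by simpa using hy)

theorem Cl.noZero : NoZeroDivisors C := by
  refine ⟨fun {a b} h => ?_⟩
  by_contra hn
  push Not at hn
  obtain ⟨e, x, hx, hx0, hx'⟩ := K.top_part hn.1
  obtain ⟨e', y, hy, hy0, hy'⟩ := K.top_part hn.2
  refine hx0 (K.hom_nzd φ hm hpoly hy hx (K.indep (K.mul_mem hx hy) ?_) hy0)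
  have l1 : ∀ u ∈ ⨆ k < e, K.F k, ∀ k' ≤ e', ∀ v ∈ K.F k', u * v ∈ ⨆ k < e + e', K.F k := by
    intro u hu k' hk' v hv
    induction hu using Submodule.iSup_induction' with
    | mem k u hu =>
      by_cases hk : k < e
      · rw [iSup_pos hk] at hu
        exact Submodule.mem_iSup_of_mem _ (Submodule.mem_iSup_of_mem (by omega) (K.mul_mem hu hv))
      · rw [iSup_neg hk, Submodule.mem_bot] at hu
        simp [hu]
    | zero => simp
    | add y z _ _ h h' => rw [add_mul]; exact add_mem h h'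
  have l2 : ∀ v ∈ ⨆ k < e', K.F k, x * v ∈ (⨆ k < e + e', K.F k) ∧
      (a - x) * v ∈ ⨆ k < e + e', K.F k := by
    intro v hv
    induction hv using Submodule.iSup_induction' with
    | mem k v hv =>
      by_cases hk : k < e'
      · rw [iSup_pos hk] at hv
        exact ⟨Submodule.mem_iSup_of_mem _ (Submodule.mem_iSup_of_mem (by omega) (K.mul_mem hx hv)),
          l1 _ hx' k hk.le v hv⟩
      · rw [iSup_neg hk, Submodule.mem_bot] at hv
        simp [hv]
    | zero => simp
    | add y z _ _ h h' => rw [mul_add, mul_add]; exact ⟨add_mem h.1 h'.1, add_mem h.2 h'.2⟩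
  have : x * y = -(x * (b - y) + (a - x) * (b - y) + (a - x) * y) := by
    rw [eq_neg_iff_add_eq_zero, ← h]; noncomm_ring
  rw [this]
  exact neg_mem (add_mem (add_mem (l2 _ hy').1 (l2 _ hy').2) (l1 _ hx' e' le_rfl y hy))

end

theorem isDomain_frac {P C : Type u} [CommRing P] [IsDomain P] [Ring C] [Algebra P C]
    [NoZeroDivisors C] [Nontrivial C] [Module.Free P C] :
    IsDomain (FractionRing P ⊗[P] C) := by
  let j : C →ₗ[P] FractionRing P ⊗[P] C := TensorProduct.mk P (FractionRing P) C 1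
  have hinj : ∀ x, j x = 0 → x = 0 := fun x hx => by
    obtain ⟨s, hs⟩ := (IsLocalizedModule.eq_zero_iff (nonZeroDivisors P) j).1 hx
    exact (smul_eq_zero.1 hs).resolve_left (nonZeroDivisors.ne_zero s.2)
  have hz : ∀ (s : nonZeroDivisors P) (x : FractionRing P ⊗[P] C), s • x = 0 → x = 0 :=
    fun s x h => IsLocalizedModule.smul_injective (S := nonZeroDivisors P) j s (by simpa using h)
  have : Nontrivial (FractionRing P ⊗[P] C) :=
    ⟨j 1, 0, fun h => one_ne_zero (hinj _ h)⟩
  have : NoZeroDivisors (FractionRing P ⊗[P] C) := ⟨fun {a b} h => by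
    obtain ⟨⟨x, s⟩, hx⟩ := IsLocalizedModule.surj (nonZeroDivisors P) j a
    obtain ⟨⟨y, t⟩, hy⟩ := IsLocalizedModule.surj (nonZeroDivisors P) j b
    have : j (x * y) = 0 := by
      have e : j (x * y) = j x * j y := by simp [j]
      simp only at hx hy
      rw [e, ← hx, ← hy, Submonoid.smul_def, Submonoid.smul_def, smul_mul_smul_comm, h, smul_zero]
    rcases mul_eq_zero.1 (hinj _ this) with h | h
    · exact Or.inl (hz s a (by simpa [h] using hx))
    · exact Or.inr (hz t b (by simpa [h] using hy))⟩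
  exact NoZeroDivisors.to_isDomain _

variable {σ : Type} {c : ℕ}

noncomputable def Setup.BB (U : Setup L σ c) (a b : Fin c ×ₗ Fin c) :
    MvPolynomial (Fin c × Fin c) L :=
  if (ofLex a).1 = (ofLex b).1 then
    ∑ j, U.b j (ofLex a).2 (ofLex b).2 • X ((ofLex a).1, j) else 0

noncomputable abbrev Setup.QQ (U : Setup L σ c) :
    QuadraticForm (MvPolynomial (Fin c × Fin c) L)
      (Fin c ×ₗ Fin c → MvPolynomial (Fin c × Fin c) L) :=
  (Matrix.toBilin' (Matrix.of U.BB)).toQuadraticMap

noncomputable def Setup.cl (U : Setup L σ c) :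
    Cl (Fin c × Fin c) L (Fin c ×ₗ Fin c) (CliffordAlgebra U.QQ) where
  B := U.BB
  γ a := CliffordAlgebra.ι U.QQ (Pi.single a 1)
  hB a b := by
    unfold Setup.BB
    split_ifs
    · exact (homogeneousSubmodule _ L 1).sum_mem fun j _ =>
        Submodule.smul_mem _ _ (isHomogeneous_X L _)
    · exact isHomogeneous_zero _ _ _
  sq a := by rw [CliffordAlgebra.ι_sq_scalar]; simp
  sw a b := by
    rw [CliffordAlgebra.ι_mul_ι_add_swap, LinearMap.BilinMap.polar_toQuadraticMap]; simp
  gen := by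
    rw [eq_top_iff, ← CliffordAlgebra.adjoin_range_ι]
    refine Algebra.adjoin_le ?_
    rintro _ ⟨v, rfl⟩
    rw [pi_eq_sum_univ' v, map_sum]
    refine Subalgebra.sum_mem _ fun a _ => ?_
    rw [map_smul]
    refine Subalgebra.smul_mem _ (Algebra.subset_adjoin ?_) _
    exact ⟨a, rfl⟩
  rk := by
    have e := CliffordAlgebra.changeFormEquiv (Q := 0) (Q' := U.QQ)
      (B := Matrix.toBilin' (Matrix.of U.BB)) (by simp)
    rw [← e.finrank_eq]
    exact finrank_eq_card_basis (Pi.basisFun _ _).ExteriorAlgebra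

theorem exists_D [Finite σ] (U : Setup L σ c) (hc : 0 < c) :
    ∃ (D : Type u) (_ : DivisionRing D) (_ : Algebra L D) (γ t t' : Fin c → Fin c → D),
      (∀ i k, γ i k * γ i k = ∑ j, U.b j k k • t i j) ∧
      (∀ i k l, γ i k * γ i l + γ i l * γ i k = ∑ j, (U.b j k l + U.b j l k) • t i j) ∧
      (∀ i i' k l, i ≠ i' → γ i k * γ i' l + γ i' l * γ i k = 0) ∧
      ∀ j k, ∑ i, t' j i * t i k = if j = k then 1 else 0 := by
  let P := MvPolynomial (Fin c × Fin c) L
  let K := U.cl
  obtain ⟨m, hm⟩ : ∃ m, c * c = m + 1 := ⟨c * c - 1, by have := Nat.mul_pos hc hc; omega⟩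
  have r1 : ∀ i k, K.γ (toLex (i, k)) * K.γ (toLex (i, k)) =
      ∑ j, U.b j k k • algebraMap P _ (X (i, j)) := fun i k => by
    rw [K.sq]; simp [K, Setup.cl, Setup.BB, P, Algebra.algebraMap_eq_smul_one, Finset.sum_smul]
  have r2 : ∀ i k l, K.γ (toLex (i, k)) * K.γ (toLex (i, l)) + K.γ (toLex (i, l)) * K.γ (toLex (i, k)) =
      ∑ j, (U.b j k l + U.b j l k) • algebraMap P _ (X (i, j)) := fun i k l => by
    rw [K.sw]
    simp [K, Setup.cl, Setup.BB, P, Algebra.algebraMap_eq_smul_one, Finset.sum_smul, add_smul,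
      Finset.sum_add_distrib]
  have r3 : ∀ i i' k l, i ≠ i' →
      K.γ (toLex (i, k)) * K.γ (toLex (i', l)) + K.γ (toLex (i', l)) * K.γ (toLex (i, k)) = 0 :=
    fun i i' k l h => by rw [K.sw]; simp [K, Setup.cl, Setup.BB, h, h.symm]
  have hnz : NoZeroDivisors (CliffordAlgebra U.QQ) := K.noZero ofLex (by simpa using hm) (by
    intro N hle hX hγ
    have := K.fd ofLex
    have : ∀ e, FiniteDimensional L (N e) := fun e => Submodule.finiteDimensional_of_le (hle e)
    have h := poly_SQ U (poly U c) (fun _ => CliffordAlgebra U.QQ)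
      (fun a _ => LinearMap.mulLeft L (algebraMap P _ (X a))) id
      (fun a _ => LinearMap.mulLeft L (K.γ (toLex a)))
      (fun a x d v => by
        simp only [LinearMap.mulLeft_apply]
        rw [← mul_assoc, ← mul_assoc, Algebra.commutes])
      (fun i d => ⟨fun k v => by
        simp only [LinearMap.mulLeft_apply, ← mul_assoc, r1, Finset.sum_mul, smul_mul_assoc, id],
        fun k l v => by
        simp only [LinearMap.mulLeft_apply, ← mul_assoc, ← add_mul, r2, Finset.sum_mul,
          smul_mul_assoc, id]⟩)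
      (fun x y d v h => by
        simp only [LinearMap.mulLeft_apply, ← mul_assoc, ← add_mul]
        rw [r3 x.1 y.1 x.2 y.2 h, zero_mul])
      N (fun _ => ⊥) hX (fun a d x hx => by simp_all) (fun a => hγ _)
      (fun a d x hx => by simp_all) (fun a => Or.inl ⟨a, rfl⟩) (K.noeth.mono hle)
    have e : ∀ d, finrank L (SQ (N d) ⊥) = finrank L (N d) := fun d => by
      simpa using finrank_SQ (N d) ⊥ bot_le
    simpa only [hm, e] using h)
  have := Module.Free.of_basis K.bas
  have := Module.Finite.of_basis K.bas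
  have : Nontrivial (CliffordAlgebra U.QQ) := K.bas.repr.toEquiv.nontrivial
  have := isDomain_frac (P := P) (C := CliffordAlgebra U.QQ)
  let D := FractionRing P ⊗[P] CliffordAlgebra U.QQ
  let j : CliffordAlgebra U.QQ →+* D := Algebra.TensorProduct.includeRight.toRingHom
  have hj : ∀ (r : L) x, j (r • x) = r • j x := fun r x => by
    rw [← algebraMap_smul P r x, ← algebraMap_smul P r (j x)]
    exact map_smul (Algebra.TensorProduct.includeRight (R := P) (A := FractionRing P)) _ x
  let A : Matrix (Fin c) (Fin c) (FractionRing P) :=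
    (algebraMap P (FractionRing P)).mapMatrix (Matrix.mvPolynomialX (Fin c) (Fin c) L)
  have hA : IsUnit A.det := by
    rw [← RingHom.map_det, isUnit_iff_ne_zero]
    exact (map_ne_zero_iff _ (IsFractionRing.injective P _)).2
      (Matrix.det_mvPolynomialX_ne_zero _ _)
  have hA' := Matrix.nonsing_inv_mul A hA
  refine ⟨D, divisionRingOfFiniteDimensional (FractionRing P) D, inferInstance,
    fun i k => j (K.γ (toLex (i, k))), fun i k => j (algebraMap P _ (X (i, k))),
    fun i k => algebraMap (FractionRing P) D (A⁻¹ i k), fun i k => ?_, fun i k l => ?_,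
    fun i i' k l h => ?_, fun i k => ?_⟩
  · rw [← map_mul, r1, map_sum]; simp only [hj]
  · rw [← map_mul, ← map_mul, ← map_add, r2, map_sum]; simp only [hj]
  · rw [← map_mul, ← map_mul, ← map_add, r3 _ _ _ _ h, map_zero]
  · have e : ∀ i k, j (algebraMap P _ (X (i, k))) = algebraMap (FractionRing P) D (A i k) :=
      fun i k => (Algebra.TensorProduct.includeRight.commutes _).trans
        (IsScalarTower.algebraMap_apply P (FractionRing P) D _)
    simp only [e, ← map_mul, ← map_sum]
    rw [← Matrix.mul_apply, hA', Matrix.one_apply]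
    split_ifs <;> simp

end Vale.Agent.P200
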