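import Vale.Agent.P200.PS

open Module MvPolynomial

namespace Vale.Agent.P200

universe u

variable {L : Type u} [Field L] {σ : Type}

theorem finrank_map_add {D V W : Type*} [DivisionRing D] [AddCommGroup V] [Module D V]
    [AddCommGroup W] [Module D W] (φ : V →ₗ[D] W) (A : Submodule D V) [FiniteDimensional D A] :
    finrank D (A.map φ) + finrank D ↥(A ⊓ LinearMap.ker φ) = finrank D A := by
  have h := LinearMap.finrank_range_add_finrank_ker (φ.domRestrict A)
  rw [LinearMap.range_domRestrict, LinearMap.ker_domRestrict] at h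
  rw [← h]
  congr 1
  have e := (Submodule.submoduleOfEquivOfLe (inf_le_left : A ⊓ LinearMap.ker φ ≤ A)).finrank_eq
  have e' : (A ⊓ LinearMap.ker φ).submoduleOf A = (LinearMap.ker φ).comap A.subtype := by
    ext x
    simp [Submodule.submoduleOf]
  rw [← e, e']

theorem finrank_rel {D V W : Type*} [DivisionRing D] [AddCommGroup V] [Module D V]
    [AddCommGroup W] [Module D W] (φ : V →ₗ[D] W) (A B : Submodule D V) (C E : Submodule D W)
    [FiniteDimensional D A] [FiniteDimensional D C]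
    (h1 : A.map φ ⊔ C = E) (h2 : A ⊓ C.comap φ = B) :
    finrank D E + finrank D B = finrank D C + finrank D A := by
  have a1 := finrank_map_add φ A
  have : FiniteDimensional D B := by
    rw [← h2]; exact Submodule.finiteDimensional_of_le inf_le_left
  have a2 := finrank_map_add φ B
  have a3 := Submodule.finrank_sup_add_finrank_inf_eq (A.map φ) C
  have e1 : B.map φ = A.map φ ⊓ C := by
    rw [← h2]; exact Submodule.map_inf_eq_map_inf_comap.symm
  have e2 : B ⊓ LinearMap.ker φ = A ⊓ LinearMap.ker φ := by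
    rw [← h2, inf_assoc]
    congr 1
    exact inf_eq_right.2 fun x hx => by
      have : φ x = 0 := hx
      simp [this]
  rw [e1, e2] at a2
  rw [h1] at a3
  omega

abbrev Sd (σ : Type) (L : Type u) [Field L] (d : ℕ) := homogeneousSubmodule σ L d

instance [Finite σ] (d : ℕ) : FiniteDimensional L (Sd σ L d) :=
  (Module.Finite.iff_fg).2 (homogeneousSubmodule_fg σ L d)

theorem finrank_restrictSupport (s : Finset (σ →₀ ℕ)) :
    finrank L (restrictSupport L (s : Set (σ →₀ ℕ))) = s.card := by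
  rw [finrank_eq_card_basis (basisRestrictSupport L (s : Set (σ →₀ ℕ)))]; simp

theorem mem_anti [Fintype σ] [DecidableEq σ] {d : ℕ} {u : σ →₀ ℕ} :
    u ∈ Finset.finsuppAntidiag Finset.univ d ↔ u.degree = d := by
  simp [Finsupp.degree_eq_sum]

theorem Sd_eq [Fintype σ] [DecidableEq σ] (d : ℕ) :
    Sd σ L d = restrictSupport L (Finset.finsuppAntidiag Finset.univ d : Finset (σ →₀ ℕ)) := by
  rw [Sd, homogeneousSubmodule_eq_finsupp_supported]
  congr 1
  ext u
  simp only [Set.mem_setOf_eq, Finset.mem_coe, mem_anti]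

theorem finrank_Sd [Fintype σ] {m : ℕ} (h : Fintype.card σ = m + 1) (d : ℕ) :
    finrank L (Sd σ L d) = (m + d).choose m := by
  classical
  rw [Sd_eq, finrank_restrictSupport, Finset.card_finsuppAntidiag_nat_eq_choose, Finset.card_univ,
    h, show m + 1 + d - 1 = m + d by omega, Nat.choose_symm_add]

theorem hc_mul {f : MvPolynomial σ L} {e : ℕ} (hf : f.IsHomogeneous e) (w : MvPolynomial σ L)
    (d : ℕ) : homogeneousComponent d (f * w) =
      if e ≤ d then f * homogeneousComponent (d - e) w else 0 := by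
  induction w using MvPolynomial.induction_on' with
  | add p q hp hq => rw [mul_add, map_add, hp, hq, map_add]; split_ifs <;> simp [mul_add]
  | monomial β c =>
    have h1 : (monomial β c : MvPolynomial σ L) ∈ homogeneousSubmodule σ L β.degree :=
      isHomogeneous_monomial c rfl
    have h2 : f * monomial β c ∈ homogeneousSubmodule σ L (e + β.degree) := hf.mul h1
    rw [homogeneousComponent_of_mem h2, homogeneousComponent_of_mem h1]
    split_ifs <;> first | rfl | omega | simp

def Hg (J : Ideal (MvPolynomial σ L)) : Prop := ∀ p ∈ J, ∀ d, homogeneousComponent d p ∈ J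

def Reg {R : Type*} [CommRing R] (J : Ideal R) (a : R) : Prop := ∀ z, a * z ∈ J → z ∈ J

theorem hg_bot : Hg (⊥ : Ideal (MvPolynomial σ L)) := by
  intro p hp d
  rw [Ideal.mem_bot.1 hp, map_zero]; exact zero_mem _

theorem mem_sup_span {R : Type*} [CommRing R] {J : Ideal R} {f p : R} :
    p ∈ J ⊔ Ideal.span {f} ↔ ∃ w, p - f * w ∈ J := by
  rw [Submodule.mem_sup]
  constructor
  · rintro ⟨y, hy, z, hz, rfl⟩
    obtain ⟨w, rfl⟩ := Ideal.mem_span_singleton'.1 hz
    exact ⟨w, by simpa [mul_comm] using hy⟩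
  · rintro ⟨w, hw⟩
    exact ⟨_, hw, f * w, Ideal.mem_span_singleton'.2 ⟨w, mul_comm _ _⟩, by ring⟩

theorem Hg.sup_span {J : Ideal (MvPolynomial σ L)} (hJ : Hg J) {f : MvPolynomial σ L} {e : ℕ}
    (hf : f.IsHomogeneous e) : Hg (J ⊔ Ideal.span {f}) := by
  intro p hp d
  obtain ⟨w, hw⟩ := mem_sup_span.1 hp
  have := hJ _ hw d
  rw [map_sub, hc_mul hf] at this
  split_ifs at this
  · exact mem_sup_span.2 ⟨_, this⟩
  · exact mem_sup_span.2 ⟨0, by simpa using this⟩

/-- The degree `d` piece of an ideal. -/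
noncomputable def pc (J : Ideal (MvPolynomial σ L)) (d : ℕ) : Submodule L (MvPolynomial σ L) :=
  Sd σ L d ⊓ J.restrictScalars L

instance [Finite σ] (J : Ideal (MvPolynomial σ L)) (d : ℕ) : FiniteDimensional L (pc J d) :=
  Submodule.finiteDimensional_of_le inf_le_left

theorem mem_pc {J : Ideal (MvPolynomial σ L)} {d : ℕ} {p : MvPolynomial σ L} :
    p ∈ pc J d ↔ p.IsHomogeneous d ∧ p ∈ J := Iff.rfl

/-- Hilbert series of the quotient. -/
noncomputable def HS (J : Ideal (MvPolynomial σ L)) : PowerSeries ℤ :=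
  PowerSeries.mk fun d => (finrank L (Sd σ L d) : ℤ) - finrank L (pc J d)

theorem HS_bot [Fintype σ] {m : ℕ} (h : Fintype.card σ = m + 1) :
    HS (⊥ : Ideal (MvPolynomial σ L)) = mon m := by
  ext d
  have : pc (⊥ : Ideal (MvPolynomial σ L)) d = ⊥ := by simp [pc]
  simp [HS, mon, this, finrank_Sd h]

theorem HS_sup [Finite σ] {J : Ideal (MvPolynomial σ L)} (hJ : Hg J) {f : MvPolynomial σ L}
    {e : ℕ} (hf : f.IsHomogeneous e) (hr : Reg J f) :
    HS (J ⊔ Ideal.span {f}) = (1 - PowerSeries.X ^ e) * HS J := by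
  ext d
  rw [sub_mul, one_mul, map_sub, PowerSeries.coeff_X_pow_mul']
  simp only [HS, PowerSeries.coeff_mk]
  have hdec : ∀ p ∈ pc (J ⊔ Ideal.span {f}) d, ∃ w, p - (if e ≤ d then
      f * homogeneousComponent (d - e) w else 0) ∈ pc J d := by
    rintro p ⟨hp, hp'⟩
    obtain ⟨w, hw⟩ := mem_sup_span.1 hp'
    refine ⟨w, ?_⟩
    have := hJ _ hw d
    have h2 := homogeneousComponent_mem d (p - f * w)
    rw [map_sub, hc_mul hf, homogeneousComponent_of_mem hp, if_pos rfl] at this h2
    exact ⟨h2, this⟩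
  split_ifs with h
  · have := finrank_rel (LinearMap.mulLeft L f) (Sd σ L (d - e)) (pc J (d - e)) (pc J d)
      (pc (J ⊔ Ideal.span {f}) d) (by
        apply le_antisymm
        · refine sup_le ?_ fun p hp => ⟨hp.1, Ideal.mem_sup_left hp.2⟩
          rintro _ ⟨w, hw, rfl⟩
          refine ⟨?_, mem_sup_span.2 ⟨w, by simp⟩⟩
          have := hf.mul hw
          rwa [Nat.add_sub_cancel' h] at this
        · intro p hp
          obtain ⟨w, hw⟩ := hdec p hp
          rw [if_pos h] at hw
          exact Submodule.mem_sup.2 ⟨_, ⟨_, homogeneousComponent_mem _ w, rfl⟩, _, hw, by simp⟩)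
      (by
        ext w
        constructor
        · rintro ⟨hw, hw'⟩
          exact ⟨hw, hr w hw'.2⟩
        · rintro ⟨hw, hw'⟩
          refine ⟨hw, ?_, J.mul_mem_left f hw'⟩
          have := hf.mul hw
          rwa [Nat.add_sub_cancel' h] at this)
    omega
  · have : pc (J ⊔ Ideal.span {f}) d = pc J d := by
      apply le_antisymm
      · intro p hp
        obtain ⟨w, hw⟩ := hdec p hp
        simpa [h] using hw
      · exact fun p hp => ⟨hp.1, Ideal.mem_sup_left hp.2⟩
    rw [this]; simp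

/-! ### Regular linear forms -/

def Soc0 (J : Ideal (MvPolynomial σ L)) : Prop := ∀ z, (∀ i, X i * z ∈ J) → z ∈ J

theorem lin_mul_mem {J : Ideal (MvPolynomial σ L)} {z l : MvPolynomial σ L}
    (hz : ∀ i, X i * z ∈ J) (hl : l.IsHomogeneous 1) : l * z ∈ J := by
  have hl' : l ∈ homogeneousSubmodule σ L 1 := hl
  rw [homogeneousSubmodule_one_eq_span_X] at hl'
  clear hl
  induction hl' using Submodule.span_induction with
  | mem x hx => obtain ⟨i, rfl⟩ := hx; exact hz i
  | zero => simp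
  | add x y _ _ hx hy => rw [add_mul]; exact add_mem hx hy
  | smul c x _ hx => rw [smul_mul_assoc]; exact (J.restrictScalars L).smul_mem c hx

theorem avoid_aux {R : Type*} [CommRing R] [IsNoetherianRing R] [Algebra L R] [Infinite L]
    (W : Submodule L R) {ρ : Type} [Finite ρ] (J : ρ → Ideal R)
    (h : ∀ r z, (∀ w ∈ W, w * z ∈ J r) → z ∈ J r) : ∃ l ∈ W, ∀ r, Reg (J r) l := by
  by_contra hn
  push Not at hn
  have hfin : ∀ r, Finite (associatedPrimes R (R ⧸ J r)) :=
    fun r => associatedPrimes.finite _ _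
  have hc : ⋃ x : (Σ r, associatedPrimes R (R ⧸ J r)),
      (((x.2.1.restrictScalars L).comap W.subtype : Submodule L W) : Set W) = Set.univ := by
    refine Set.eq_univ_of_forall fun l => ?_
    obtain ⟨r, hr⟩ := hn l l.2
    unfold Reg at hr
    push Not at hr
    obtain ⟨z, hz, hz'⟩ := hr
    have : (l : R) ∈ ⋃ p ∈ associatedPrimes R (R ⧸ J r), (p : Set R) := by
      rw [biUnion_associatedPrimes_eq_zero_divisors]
      exact ⟨Ideal.Quotient.mk _ z, fun h => hz' (Ideal.Quotient.eq_zero_iff_mem.1 h),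
        Ideal.Quotient.eq_zero_iff_mem.2 hz⟩
    obtain ⟨p, hp, hl⟩ := Set.mem_iUnion₂.1 this
    exact Set.mem_iUnion.2 ⟨⟨r, p, hp⟩, hl⟩
  obtain ⟨⟨r, p, hp⟩, htop⟩ := Subspace.exists_eq_top_of_iUnion_eq_univ hc
  have hW : ∀ w ∈ W, w ∈ p := fun w hw => by
    have : (⟨w, hw⟩ : W) ∈ (⊤ : Submodule L W) := trivial
    rw [← htop] at this
    exact this
  clear htop hc
  obtain ⟨hpr, x, hx⟩ := isAssociatedPrime_iff.1 hp
  obtain ⟨y, hy⟩ := Ideal.Quotient.mk_surjective x
  have hx0 : y ∈ J r := h r y fun w hw => by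
    have h1 := hW w hw
    rw [hx, Submodule.mem_colon_singleton, ← hy] at h1
    exact Ideal.Quotient.eq_zero_iff_mem.1 h1
  apply hpr.ne_top
  rw [hx, ← hy, Ideal.Quotient.eq_zero_iff_mem.2 hx0]
  simp

theorem avoid [Finite σ] [Infinite L] {ρ : Type} [Finite ρ] (J : ρ → Ideal (MvPolynomial σ L))
    (h : ∀ r, Soc0 (J r)) : ∃ l : MvPolynomial σ L, l.IsHomogeneous 1 ∧ ∀ r, Reg (J r) l :=
  avoid_aux (Sd σ L 1) J fun r z hz => h r z fun i => hz _ (isHomogeneous_X L i)

theorem Reg.swap {R : Type*} [CommRing R] {J : Ideal R} {f l : R} (hf : Reg J f)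
    (hl : Reg (J ⊔ Ideal.span {f}) l) : Reg (J ⊔ Ideal.span {l}) f := by
  intro z hz
  obtain ⟨w, hw⟩ := mem_sup_span.1 hz
  obtain ⟨v, hv⟩ := mem_sup_span.1 (hl w (mem_sup_span.2 ⟨z, by
    have := neg_mem hw
    rwa [neg_sub] at this⟩))
  refine mem_sup_span.2 ⟨v, hf _ ?_⟩
  have := add_mem hw (J.mul_mem_left l hv)
  rwa [show f * z - l * w + l * (w - f * v) = f * (z - l * v) by ring] at this

def Dp : ℕ → Ideal (MvPolynomial σ L) → Prop
  | 0, _ => True
  | r + 1, J => ∃ l : MvPolynomial σ L, l.IsHomogeneous 1 ∧ Reg J l ∧ Dp r (J ⊔ Ideal.span {l})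

theorem Dp.soc {r : ℕ} {J : Ideal (MvPolynomial σ L)} (h : Dp (r + 1) J) : Soc0 J := by
  obtain ⟨l, hl, hr, -⟩ := h
  exact fun z hz => hr z (lin_mul_mem hz hl)

theorem Dp.quot [Finite σ] [Infinite L] : ∀ (r : ℕ) {J : Ideal (MvPolynomial σ L)}
    {g : MvPolynomial σ L}, Dp (r + 1) J → Reg J g → Dp r (J ⊔ Ideal.span {g}) := by
  intro r
  induction r with
  | zero => intros; trivial
  | succ r ih =>
    intro J g h hg
    obtain ⟨l1, hl1, hr1, h1⟩ := h
    have hs1 := h1.soc
    obtain ⟨l2, hl2, hr2, -⟩ := id h1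
    have hsg : Soc0 (J ⊔ Ideal.span {g}) := by
      intro z hz
      obtain ⟨w1, hw1⟩ := mem_sup_span.1 (lin_mul_mem hz hl1)
      obtain ⟨w2, hw2⟩ := mem_sup_span.1 (lin_mul_mem hz hl2)
      have a1 : l2 * w1 - l1 * w2 ∈ J := hg _ (by
        have := sub_mem (J.mul_mem_left l1 hw2) (J.mul_mem_left l2 hw1)
        rwa [show l1 * (l2 * z - g * w2) - l2 * (l1 * z - g * w1) = g * (l2 * w1 - l1 * w2) by
          ring] at this)
      obtain ⟨w, hw⟩ := mem_sup_span.1 (hr2 w1 (mem_sup_span.2 ⟨w2, a1⟩))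
      refine mem_sup_span.2 ⟨w, hr1 _ ?_⟩
      have := add_mem hw1 (J.mul_mem_left g hw)
      rwa [show l1 * z - g * w1 + g * (w1 - l1 * w) = l1 * (z - g * w) by ring] at this
    obtain ⟨l, hl, hlr⟩ := avoid (ρ := Bool)
      (fun b => if b then J ⊔ Ideal.span {g} else J ⊔ Ideal.span {l1})
      (by rintro (_ | _) <;> simpa)
    have hlg : Reg (J ⊔ Ideal.span {g}) l := by simpa using hlr true
    have hll : Reg (J ⊔ Ideal.span {l1}) l := by simpa using hlr false
    have a1 := ih h1 hll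
    have a2 : Dp (r + 1) (J ⊔ Ideal.span {l}) :=
      ⟨l1, hl1, hr1.swap hll, by rwa [sup_right_comm]⟩
    have a3 := ih a2 (hg.swap hlg)
    exact ⟨l, hl, hlg, by rwa [sup_right_comm]⟩

theorem dp_X [DecidableEq σ] (l : List σ) (hl : l.Nodup) :
    ∀ s : Set σ, (∀ i ∈ l, i ∉ s) → Dp (L := L) l.length (Ideal.span (X '' s)) := by
  induction l with
  | nil => intros; trivial
  | cons a l ih =>
    intro s hs
    refine ⟨X a, isHomogeneous_X L a, fun z hz => ?_, ?_⟩
    · rw [mem_ideal_span_X_image] at hz ⊢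
      intro m hm
      obtain ⟨i, hi, h⟩ := hz (Finsupp.single a 1 + m) (by
        rw [MvPolynomial.mem_support_iff, coeff_X_mul]; exact MvPolynomial.mem_support_iff.1 hm)
      have : a ≠ i := fun e => hs a (by simp) (e ▸ hi)
      exact ⟨i, hi, by simpa [Finsupp.single_apply, this] using h⟩
    · rw [← Ideal.span_union, ← Set.image_singleton, ← Set.image_union]
      refine ih (List.nodup_cons.1 hl).2 _ fun i hi h => ?_
      rcases h with h | h
      · exact hs i (by simp [hi]) h
      · exact (List.nodup_cons.1 hl).1 (Set.mem_singleton_iff.1 h ▸ hi)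

theorem dp_bot [Fintype σ] : Dp (L := L) (σ := σ) (Fintype.card σ) ⊥ := by
  classical
  have := dp_X (L := L) (Finset.univ : Finset σ).toList (Finset.nodup_toList _) ∅ (by simp)
  simpa using this

end Vale.Agent.P200
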