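import Vale.Agent.P200.Select
import Vale.Agent.P200.GM

open Module MvPolynomial TensorProduct

namespace Vale.Agent.P200

universe u

variable {L : Type u} [Field L] {σ : Type} {c : ℕ}

theorem sum_alt {W : Type*} [AddCommGroup W] (E : Fin c → Fin c → W) (h0 : ∀ k, E k k = 0)
    (h1 : ∀ k l, E k l + E l k = 0) : ∑ k, ∑ l, E k l = 0 := by
  rw [← Finset.sum_product']
  refine Finset.sum_involution (fun x _ => x.swap) (fun x _ => h1 _ _) ?_ (by simp) (by simp)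
  rintro ⟨k, l⟩ _ h e
  have : l = k := congrArg Prod.fst e
  exact h (by subst this; exact h0 _)

section
variable {Q Q' : Type u} [AddCommGroup Q] [Module L Q] [AddCommGroup Q'] [Module L Q']

noncomputable def con {R : Type u} [AddCommGroup R] [Module L R] (ξ : Q →ₗ[L] L) :
    R ⊗[L] Q →ₗ[L] R := (TensorProduct.rid L R).toLinearMap ∘ₗ ξ.lTensor R

@[simp] theorem con_tmul {R : Type u} [AddCommGroup R] [Module L R] (ξ : Q →ₗ[L] L) (s : R)
    (q : Q) : con ξ (s ⊗ₜ[L] q) = ξ q • s := by simp [con]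

theorem con_map {R R' : Type u} [AddCommGroup R] [Module L R] [AddCommGroup R'] [Module L R']
    (ξ : Q' →ₗ[L] L) (φ : R →ₗ[L] R') (ψ : Q →ₗ[L] Q') (w : R ⊗[L] Q) :
    con ξ (TensorProduct.map φ ψ w) = φ (con (ξ ∘ₗ ψ) w) := by
  induction w with
  | zero => simp
  | tmul s q => simp
  | add x y hx hy => simp [hx, hy]

theorem con_rTensor {R R' : Type u} [AddCommGroup R] [Module L R] [AddCommGroup R'] [Module L R']
    (ξ : Q →ₗ[L] L) (φ : R →ₗ[L] R') (w : R ⊗[L] Q) :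
    con ξ (φ.rTensor Q w) = φ (con ξ w) := con_map ξ φ LinearMap.id w

theorem sum_con {R : Type u} [AddCommGroup R] [Module L R] {ι : Type*} [Fintype ι]
    (e : Basis ι L Q) (w : R ⊗[L] Q) : w = ∑ i, con (e.coord i) w ⊗ₜ[L] e i := by
  induction w with
  | zero => simp
  | tmul s q =>
    conv_lhs => rw [← e.sum_repr q]
    simp only [tmul_sum, con_tmul, smul_tmul, Basis.coord_apply]
  | add x y hx hy =>
    conv_lhs => rw [hx, hy]
    simp [add_tmul, Finset.sum_add_distrib]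

theorem eq_zero_of_con {R : Type u} [AddCommGroup R] [Module L R] [FiniteDimensional L Q]
    (w : R ⊗[L] Q) (h : ∀ ξ : Q →ₗ[L] L, con ξ w = 0) : w = 0 := by
  rw [sum_con (Module.finBasis L Q) w]; simp [h]

end

namespace Setup

variable (U : Setup L σ c)

noncomputable abbrev J : Ideal (MvPolynomial σ L) := U.A ⊔ Ideal.span (Set.range U.f)

abbrev Aq : Type u := MvPolynomial σ L ⧸ U.J

noncomputable def mkJ : MvPolynomial σ L →ₗ[L] U.Aq := (Ideal.Quotient.mkₐ L U.J).toLinearMap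

theorem mkJ_apply (p : MvPolynomial σ L) : U.mkJ p = Ideal.Quotient.mk U.J p := rfl

noncomputable def Hc : ℕ → MvPolynomial σ L →ₗ[L] MvPolynomial σ L
  | 0 => 0
  | j + 1 => homogeneousComponent j

theorem Hc_Hc (j : ℕ) (p : MvPolynomial σ L) : Hc j (Hc j p) = Hc j p := by
  cases j with
  | zero => rfl
  | succ j => exact (homogeneousComponent_of_mem (homogeneousComponent_mem j p)).trans (if_pos rfl)

theorem Hc_mul (j : ℕ) (k : Fin c) (p : MvPolynomial σ L) :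
    Hc (j + 1) (U.z k * p) = U.z k * Hc j p := by
  show homogeneousComponent j _ = _
  rw [hc_mul (U.hz k)]
  cases j with
  | zero => simp [Hc]
  | succ j => simp [Hc]

theorem Hc_mem (j : ℕ) {p : MvPolynomial σ L} (hp : p ∈ U.J) : Hc j p ∈ U.J := by
  cases j with
  | zero => exact zero_mem _
  | succ j => exact U.hJ p hp j

noncomputable def Ap (j : ℕ) : Submodule L U.Aq := LinearMap.range (U.mkJ ∘ₗ Hc j)

theorem Ap_succ (j : ℕ) : U.Ap (j + 1) = (Sd σ L j).map U.mkJ := by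
  apply le_antisymm
  · rintro _ ⟨p, rfl⟩; exact ⟨_, homogeneousComponent_mem j p, rfl⟩
  · rintro _ ⟨p, hp, rfl⟩
    exact ⟨p, congrArg U.mkJ ((homogeneousComponent_of_mem hp).trans (if_pos rfl))⟩

theorem Ap_zero : U.Ap 0 = ⊥ := by simp [Ap, Hc]

instance [Finite σ] (j : ℕ) : FiniteDimensional L (U.Ap j) := by
  cases j with
  | zero => rw [Ap_zero]; infer_instance
  | succ j => rw [Ap_succ]; infer_instance

theorem finrank_Ap [Finite σ] (j : ℕ) : finrank L (U.Ap (j + 1)) = c.choose j := by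
  have h := finrank_map_add U.mkJ (Sd σ L j)
  have e : Sd σ L j ⊓ LinearMap.ker U.mkJ = pc U.J j := by
    ext p
    simp [mem_pc, mkJ_apply, Ideal.Quotient.eq_zero_iff_mem]
  have h2 := congrArg (PowerSeries.coeff j) U.hs
  have h3 : ((1 + PowerSeries.X) ^ c : PowerSeries ℤ) =
      (((1 + Polynomial.X) ^ c : Polynomial ℤ) : PowerSeries ℤ) := by simp
  rw [HS, PowerSeries.coeff_mk, h3, Polynomial.coeff_coe, Polynomial.coeff_one_add_X_pow] at h2
  rw [e, ← Ap_succ] at h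
  have : finrank L (pc U.J j) = finrank L (pc (U.A ⊔ Ideal.span (Set.range U.f)) j) := rfl
  omega

noncomputable def ph (j : ℕ) : MvPolynomial σ L →ₗ[L] U.Ap j := (U.mkJ ∘ₗ Hc j).rangeRestrict

theorem ph_val (j : ℕ) (p : MvPolynomial σ L) :
    (U.ph j p : U.Aq) = Ideal.Quotient.mk U.J (Hc j p) := rfl

noncomputable def mz (k : Fin c) (j : ℕ) : U.Ap j →ₗ[L] U.Ap (j + 1) :=
  (LinearMap.mulLeft L (U.mkJ (U.z k))).restrict (by
    rintro _ ⟨p, rfl⟩
    exact ⟨U.z k * p, by simp [Hc_mul, mkJ_apply]⟩)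

theorem mz_ph (k : Fin c) (j : ℕ) (p : MvPolynomial σ L) :
    U.mz k j (U.ph j p) = U.ph (j + 1) (U.z k * p) := by
  apply Subtype.ext
  simp [mz, ph_val, Hc_mul, mkJ_apply]

variable {Q0 Q1 Q2 : Type u} [AddCommGroup Q0] [Module L Q0] [AddCommGroup Q1] [Module L Q1]
  [AddCommGroup Q2] [Module L Q2]

noncomputable def Dd (Γ : Fin c → Q0 →ₗ[L] Q1) (j : ℕ) :
    U.Ap j ⊗[L] Q0 →ₗ[L] U.Ap (j + 1) ⊗[L] Q1 := ∑ k, TensorProduct.map (U.mz k j) (Γ k)

noncomputable def Dt (Γ : Fin c → Q0 →ₗ[L] Q1) :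
    MvPolynomial σ L ⊗[L] Q0 →ₗ[L] MvPolynomial σ L ⊗[L] Q1 :=
  ∑ k, TensorProduct.map (LinearMap.mulLeft L (U.z k)) (Γ k)

theorem Dd_ph (Γ : Fin c → Q0 →ₗ[L] Q1) (j : ℕ) (w : MvPolynomial σ L ⊗[L] Q0) :
    U.Dd Γ j ((U.ph j).rTensor Q0 w) = (U.ph (j + 1)).rTensor Q1 (U.Dt Γ w) := by
  induction w with
  | zero => simp
  | tmul s q => simp [Dd, Dt, mz_ph]
  | add x y hx hy => simp [hx, hy]

theorem ph_surj (j : ℕ) : Function.Surjective ((U.ph j).rTensor Q0) :=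
  LinearMap.rTensor_surjective _ (LinearMap.surjective_rangeRestrict _)

theorem ph_eq_zero [FiniteDimensional L Q0] (j : ℕ) (w : MvPolynomial σ L ⊗[L] Q0) :
    (U.ph j).rTensor Q0 w = 0 ↔ ∀ ξ : Q0 →ₗ[L] L, Hc j (con ξ w) ∈ U.J := by
  constructor
  · intro h ξ
    have := con_rTensor ξ (U.ph j) w
    rw [h, map_zero] at this
    exact Ideal.Quotient.eq_zero_iff_mem.1 (congrArg Subtype.val this).symm
  · intro h
    refine eq_zero_of_con _ fun ξ => ?_
    rw [con_rTensor]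
    exact Subtype.ext (Ideal.Quotient.eq_zero_iff_mem.2 (h ξ))

/-- The Clifford relations. -/
def Rel (Γ : Fin c → Q0 →ₗ[L] Q1) (Γ' : Fin c → Q1 →ₗ[L] Q2) (t : Fin c → Q0 →ₗ[L] Q2) : Prop :=
  (∀ k v, Γ' k (Γ k v) = ∑ j, U.b j k k • t j v) ∧
    ∀ k l v, Γ' k (Γ l v) + Γ' l (Γ k v) = ∑ j, (U.b j k l + U.b j l k) • t j v

noncomputable def ft (j : Fin c) : MvPolynomial σ L := ∑ k, ∑ l, U.b j k l • (U.z k * U.z l)

theorem Dt_Dt {Γ : Fin c → Q0 →ₗ[L] Q1} {Γ' : Fin c → Q1 →ₗ[L] Q2} {t : Fin c → Q0 →ₗ[L] Q2}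
    (h : U.Rel Γ Γ' t) (w : MvPolynomial σ L ⊗[L] Q0) :
    U.Dt Γ' (U.Dt Γ w) = ∑ j, TensorProduct.map (LinearMap.mulLeft L (U.ft j)) (t j) w := by
  induction w with
  | zero => simp
  | add x y hx hy => simp [hx, hy, Finset.sum_add_distrib]
  | tmul s q =>
    have := sum_alt (fun k l => (U.z k * U.z l * s) ⊗ₜ[L] (Γ' k (Γ l q) - ∑ j, U.b j k l • t j q))
      (fun k => by rw [h.1, sub_self, tmul_zero]) (fun k l => by
        rw [mul_comm (U.z l), ← tmul_add, sub_add_sub_comm, h.2, ← Finset.sum_add_distrib]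
        simp [add_smul])
    simp only [tmul_sub, Finset.sum_sub_distrib, sub_eq_zero] at this
    simp only [Dt, LinearMap.sum_apply, map_tmul, map_sum, LinearMap.mulLeft_apply, ft,
      Finset.sum_mul, sum_tmul, smul_mul_assoc, smul_tmul]
    rw [Finset.sum_comm]
    simp only [← mul_assoc]
    rw [this]
    simp only [tmul_sum]
    rw [Finset.sum_comm (s := Finset.univ) (f := fun j k => ∑ l,
      (U.z k * U.z l * s) ⊗ₜ[L] (U.b j k l • t j q))]
    exact Finset.sum_congr rfl fun k _ => Finset.sum_comm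

theorem ft_mem (j : Fin c) : U.ft j ∈ U.J := by
  have := sub_mem (Ideal.mem_sup_right (S := U.A) (Ideal.subset_span (Set.mem_range_self j)))
    (Ideal.mem_sup_left (T := Ideal.span (Set.range U.f)) (U.hb j))
  simpa [ft] using this

theorem Dd_Dd [FiniteDimensional L Q2] {Γ : Fin c → Q0 →ₗ[L] Q1} {Γ' : Fin c → Q1 →ₗ[L] Q2}
    {t : Fin c → Q0 →ₗ[L] Q2} (h : U.Rel Γ Γ' t) (j : ℕ) (x : U.Ap j ⊗[L] Q0) :
    U.Dd Γ' (j + 1) (U.Dd Γ j x) = 0 := by
  obtain ⟨w, rfl⟩ := U.ph_surj j x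
  rw [Dd_ph, Dd_ph, ph_eq_zero, U.Dt_Dt h]
  intro ξ
  apply U.Hc_mem
  rw [map_sum]
  refine Ideal.sum_mem _ fun i _ => ?_
  rw [con_map]
  exact Ideal.mul_mem_right _ _ (U.ft_mem i)

theorem homotopy [FiniteDimensional L Q1] [FiniteDimensional L Q2] {Γ : Fin c → Q0 →ₗ[L] Q1}
    {Γ' : Fin c → Q1 →ₗ[L] Q2} {t : Fin c → Q0 →ₗ[L] Q2} (h : U.Rel Γ Γ' t) (j : ℕ)
    (x : U.Ap (j + 1) ⊗[L] Q0) (hx : U.Dd Γ (j + 1) x = 0) (i : Fin c) :
    (t i).lTensor _ x ∈ LinearMap.range (U.Dd Γ' j) := by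
  obtain ⟨w0, rfl⟩ := U.ph_surj _ x
  set w := (Hc (j + 1)).rTensor Q0 w0 with hw
  have hcomm : U.Dt Γ w = (Hc (j + 2)).rTensor Q1 (U.Dt Γ w0) := by
    rw [hw]
    generalize w0 = y
    induction y with
    | zero => simp
    | tmul s q => simp [Dt, Hc_mul]
    | add x y hx hy => simp [hx, hy]
  rw [Dd_ph, ph_eq_zero] at hx
  have hx' : ∀ ξ : Q1 →ₗ[L] L, ∃ v : Fin c → MvPolynomial σ L,
      con ξ (U.Dt Γ w) - ∑ i, U.f i * v i ∈ U.A := by
    intro ξ
    rw [hcomm, con_rTensor]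
    obtain ⟨a, ha, g, hg, hag⟩ := Submodule.mem_sup.1 (hx ξ)
    obtain ⟨v, rfl⟩ := Ideal.mem_span_range_iff_exists_fun.1 hg
    exact ⟨v, by rw [← hag]; simpa [mul_comm] using ha⟩
  choose v hv using hx'
  let e := Module.finBasis L Q1
  let ww : Fin c → MvPolynomial σ L ⊗[L] Q1 := fun i => ∑ r, v (e.coord r) i ⊗ₜ[L] e r
  have h1 : ∀ ξ : Q2 →ₗ[L] L,
      con ξ (U.Dt Γ' (U.Dt Γ w)) - ∑ i, U.f i * con ξ (U.Dt Γ' (ww i)) ∈ U.A := by
    intro ξ
    rw [sum_con e (U.Dt Γ w)]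
    simp only [ww, map_sum, Finset.mul_sum]
    rw [Finset.sum_comm, ← Finset.sum_sub_distrib]
    refine Ideal.sum_mem _ fun r _ => ?_
    simp only [Dt, LinearMap.sum_apply, map_tmul, map_sum, con_tmul, LinearMap.mulLeft_apply,
      Finset.mul_sum]
    rw [Finset.sum_comm, ← Finset.sum_sub_distrib]
    refine Ideal.sum_mem _ fun k _ => ?_
    have := (U.A.restrictScalars L).smul_mem (ξ (Γ' k (e r)))
      (U.A.mul_mem_left (U.z k) (hv (e.coord r)))
    simp only [Dt, LinearMap.sum_apply, map_sum, mul_sub, smul_sub, Finset.mul_sum,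
      Finset.smul_sum] at this
    simpa [Finset.smul_sum, Finset.mul_sum, mul_left_comm] using this
  refine ⟨(U.ph j).rTensor Q1 (ww i), ?_⟩
  have e1 : (t i).lTensor _ ((U.ph (j + 1)).rTensor Q0 w0) =
      (U.ph (j + 1)).rTensor Q2 ((t i).lTensor _ w) := by
    rw [hw]
    generalize w0 = y
    induction y with
    | zero => simp
    | tmul s q =>
      simp only [LinearMap.rTensor_tmul, LinearMap.lTensor_tmul]
      congr 1
      exact Subtype.ext (by simp [ph_val, Hc_Hc])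
    | add x y hx hy => simp [hx, hy]
  rw [Dd_ph, e1]
  suffices H : (U.ph (j + 1)).rTensor Q2 ((t i).lTensor _ w - U.Dt Γ' (ww i)) = 0 by
    rw [map_sub, sub_eq_zero] at H
    exact H.symm
  rw [ph_eq_zero]
  intro ξ
  apply U.Hc_mem
  rw [map_sub]
  refine U.syz (fun i => con ξ ((t i).lTensor _ w) - con ξ (U.Dt Γ' (ww i))) ?_ i
  have h2 := h1 ξ
  rw [U.Dt_Dt h, map_sum] at h2
  have h3 : ∑ i, (U.f i - U.ft i) * con ξ ((t i).lTensor _ w) ∈ U.A :=
    Ideal.sum_mem _ fun i _ => Ideal.mul_mem_right _ _ (U.hb i)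
  have h4 := add_mem h2 h3
  simp only [con_map, LinearMap.lTensor, LinearMap.mulLeft_apply, LinearMap.id_apply, sub_mul,
    mul_sub, Finset.sum_sub_distrib] at h4 ⊢
  rwa [show ∀ a b c : MvPolynomial σ L, a - b + (c - a) = c - b from fun a b c => by ring] at h4

end Setup

end Vale.Agent.P200
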