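import Vale.Agent.P200.Graded

open Module

namespace Vale.Agent.P200

theorem count_new {D V ι O : Type*} [DivisionRing D] [AddCommGroup V] [Module D V] [LinearOrder O]
    (W : Submodule D V) [FiniteDimensional D W] (Y : ι → V) (key : ι → O)
    (hk : Function.Injective key) (s : Finset ι) :
    finrank D ↥(W ⊔ Submodule.span D (Y '' s)) = finrank D W +
      {u | u ∈ s ∧ Y u ∉ W ⊔ Submodule.span D (Y '' {v | v ∈ s ∧ key v < key u})}.ncard := by
  classical
  induction s using Finset.induction_on_max_value key with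
  | empty => rw [Finset.coe_empty, Set.image_empty, Submodule.span_empty, sup_bot_eq]; simp
  | insert a s ha hm ih =>
    have hlt : ∀ x ∈ s, key x < key a := fun x hx =>
      lt_of_le_of_ne (hm x hx) fun h => ha (hk h ▸ hx)
    have e1 : ∀ u ∈ s, {v | v ∈ insert a s ∧ key v < key u} = {v | v ∈ s ∧ key v < key u} := by
      intro u hu
      ext v
      simp only [Set.mem_setOf_eq, Finset.mem_insert]
      constructor
      · rintro ⟨rfl | h, h'⟩
        · exact absurd h' (hlt u hu).not_gt
        · exact ⟨h, h'⟩
      · exact fun h => ⟨Or.inr h.1, h.2⟩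
    have e2 : {v | v ∈ insert a s ∧ key v < key a} = (s : Set ι) := by
      ext v
      simp only [Set.mem_setOf_eq, Finset.mem_insert, Finset.mem_coe]
      constructor
      · rintro ⟨rfl | h, h'⟩
        · exact absurd h' (lt_irrefl _)
        · exact h
      · exact fun h => ⟨Or.inr h, hlt v h⟩
    have : FiniteDimensional D (Submodule.span D (Y '' s)) :=
      FiniteDimensional.span_of_finite D (s.finite_toSet.image Y)
    rw [Finset.coe_insert, Set.image_insert_eq, Submodule.span_insert, sup_comm (D ∙ Y a),
      ← sup_assoc]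
    by_cases h : Y a ∈ W ⊔ Submodule.span D (Y '' s)
    · rw [sup_eq_left.2 ((Submodule.span_singleton_le_iff_mem _ _).2 h), ih]
      congr 2
      ext u
      simp only [Set.mem_setOf_eq]
      constructor
      · exact fun hu => ⟨Finset.mem_insert_of_mem hu.1, by rw [e1 u hu.1]; exact hu.2⟩
      · rintro ⟨hu, hu'⟩
        rcases Finset.mem_insert.1 hu with rfl | hu
        · rw [e2] at hu'; exact absurd h hu'
        · exact ⟨hu, by rwa [e1 u hu] at hu'⟩
    · have e3 := Submodule.finrank_sup_add_finrank_inf_eq (W ⊔ Submodule.span D (Y '' s)) (D ∙ Y a)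
      have h0 : Y a ≠ 0 := fun h0 => h (h0 ▸ zero_mem _)
      rw [((Submodule.disjoint_span_singleton' h0).2 h).eq_bot,
        finrank_span_singleton h0, finrank_bot, add_zero] at e3
      rw [e3, ih, add_assoc,
        ← Set.ncard_insert_of_notMem (a := a) (by simp [ha])
          (s.finite_toSet.subset fun u hu => hu.1)]
      congr 2
      ext u
      simp only [Set.mem_setOf_eq, Set.mem_insert_iff]
      constructor
      · rintro (rfl | hu)
        · exact ⟨Finset.mem_insert_self _ _, by rw [e2]; exact h⟩
        · exact ⟨Finset.mem_insert_of_mem hu.1, by rw [e1 u hu.1]; exact hu.2⟩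
      · rintro ⟨hu, hu'⟩
        rcases Finset.mem_insert.1 hu with rfl | hu
        · exact Or.inl rfl
        · exact Or.inr ⟨hu, by rwa [e1 u hu] at hu'⟩

def PM {A : Type*} [Ring A] (a b : A) : Prop := a = b ∨ a = -b

section
variable {A : Type*} [Ring A]

theorem PM.trans {a b c : A} (h : PM a b) (h' : PM b c) : PM a c := by
  rcases h with rfl | rfl <;> rcases h' with rfl | rfl <;> simp [PM]

theorem PM.mul_left {a b : A} (h : PM a b) (c : A) : PM (c * a) (c * b) := by
  rcases h with rfl | rfl <;> simp [PM]

theorem PM.mul_right {a b : A} (h : PM a b) (c : A) : PM (a * c) (b * c) := by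
  rcases h with rfl | rfl <;> simp [PM]

theorem PM.mem {D : Type*} [Ring D] [Module D A] {a b : A} (h : PM a b) (N : Submodule D A) :
    a ∈ N ↔ b ∈ N := by
  rcases h with rfl | rfl <;> simp

variable {σ : Type} (y : σ → A)

theorem pm_perm (hy : ∀ i j, PM (y i * y j) (y j * y i)) {l l' : List σ} (h : l.Perm l') :
    PM (l.map y).prod (l'.map y).prod := by
  induction h with
  | nil => exact Or.inl rfl
  | cons x _ ih => simpa using ih.mul_left (y x)
  | swap a b l => simpa [mul_assoc] using (hy b a).mul_right (l.map y).prod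
  | trans _ _ h h' => exact h.trans h'

noncomputable def YY (u : σ →₀ ℕ) : A := ((Finsupp.toMultiset u).toList.map y).prod

theorem YY_zero : YY y 0 = 1 := by simp [YY]

theorem YY_add (hy : ∀ i j, PM (y i * y j) (y j * y i)) (u : σ →₀ ℕ) (k : σ) :
    PM (YY y (u + Finsupp.single k 1)) (YY y u * y k) := by
  have := pm_perm y hy (l := (Finsupp.toMultiset (u + Finsupp.single k 1)).toList)
    (l' := (Finsupp.toMultiset u).toList ++ [k]) (by
      rw [← Multiset.coe_eq_coe, ← Multiset.coe_add]; simp)
  simpa [YY] using this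

variable {D : Type*} [DivisionRing D] [Module D A] [IsScalarTower D A A]

theorem gen_aux [DecidableEq σ] (hy : ∀ i j, PM (y i * y j) (y j * y i)) (V : ℕ → Submodule D A)
    (s : Finset σ) (d0 : ℕ)
    (h : ∀ d ≥ d0, V (d + 1) ≤ ⨆ i ∈ s, (V d).map (LinearMap.mulRight D (y i))) (e : ℕ) :
    V (d0 + e) ≤ ⨆ u ∈ s.finsuppAntidiag e, (V d0).map (LinearMap.mulRight D (YY y u)) := by
  induction e with
  | zero =>
    intro x hx
    exact Submodule.mem_iSup_of_mem 0 (Submodule.mem_iSup_of_mem (by simp)
      ⟨x, hx, by simp [YY_zero]⟩)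
  | succ e ih =>
    refine (h (d0 + e) (by omega)).trans (iSup₂_le fun i hi => (Submodule.map_mono ih).trans ?_)
    rw [Submodule.map_iSup]
    refine iSup_le fun u => ?_
    rw [Submodule.map_iSup]
    refine iSup_le fun hu => ?_
    rintro _ ⟨_, ⟨x, hx, rfl⟩, rfl⟩
    have hu' := Finset.mem_finsuppAntidiag.1 hu
    have : u + Finsupp.single i 1 ∈ s.finsuppAntidiag (e + 1) := by
      refine Finset.mem_finsuppAntidiag.2 ⟨?_, ?_⟩
      · simp [Finset.sum_add_distrib, hu'.1, Finsupp.single_apply, hi]
      · exact Finsupp.support_add.trans (Finset.union_subset hu'.2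
          (Finsupp.support_single_subset.trans (by simpa using hi)))
    refine Submodule.mem_iSup_of_mem _ (Submodule.mem_iSup_of_mem this ?_)
    simp only [LinearMap.mulRight_apply, mul_assoc]
    exact (((YY_add y hy u i).mul_left x).mem _).1 ⟨x, hx, rfl⟩

end

theorem finrank_biSup_le {D V ι : Type*} [DivisionRing D] [AddCommGroup V] [Module D V]
    (s : Finset ι) (N : ι → Submodule D V) [∀ i, FiniteDimensional D (N i)] (M : ℕ)
    (h : ∀ i, finrank D (N i) ≤ M) : finrank D ↥(⨆ i ∈ s, N i) ≤ M * s.card := by
  classical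
  induction s using Finset.induction_on with
  | empty => rw [show (⨆ i ∈ (∅ : Finset ι), N i) = ⊥ by simp]; simp
  | insert a s ha ih =>
    rw [Finset.iSup_insert, Finset.card_insert_of_notMem ha]
    have : FiniteDimensional D ↥(⨆ i ∈ s, N i) := by rw [← Finset.sup_eq_iSup]; infer_instance
    have := Submodule.finrank_add_le_finrank_add_finrank (N a) (⨆ i ∈ s, N i)
    have := h a
    nlinarith

theorem growth (m c M : ℕ) : ∃ e, M * (m + e - 1).choose e < (m + (c + e)).choose m := by
  refine ⟨M * m + 1, lt_of_lt_of_le ?_ (Nat.choose_le_choose m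
    (show m + (M * m + 1) ≤ m + (c + (M * m + 1)) by omega))⟩
  rw [Nat.choose_symm_add]
  have h := Nat.choose_mul_succ_eq (m + M * m) (M * m + 1)
  have hp := Nat.choose_pos (show M * m + 1 ≤ m + (M * m + 1) by omega)
  rw [show m + M * m + 1 - (M * m + 1) = m by omega, add_assoc] at h
  rw [show m + (M * m + 1) - 1 = m + M * m by omega]
  by_contra hn
  push Not at hn
  have := Nat.mul_le_mul_right (m + (M * m + 1)) hn
  rw [mul_assoc, h] at this
  nlinarith

end Vale.Agent.P200
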