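import Vale.Agent.P200.Span
import Vale.Agent.P200.Div

open Module MvPolynomial TensorProduct

namespace Vale.Agent.P200

universe u

variable {L : Type u} [Field L] {D : Type u} [DivisionRing D] [Algebra L D] {σ : Type} {c : ℕ}

theorem cen {S : Type u} [CommRing S] [Algebra L S] (s : S) (x : D ⊗[L] S) :
    (1 : D) ⊗ₜ[L] s * x = x * (1 : D) ⊗ₜ[L] s := by
  induction x with
  | zero => simp
  | tmul a p => simp [mul_comm]
  | add x y hx hy => rw [mul_add, add_mul, hx, hy]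

theorem Setup.sq (U : Setup L σ c) (γ t : Fin c → D)
    (h1 : ∀ k, γ k * γ k = ∑ j, U.b j k k • t j)
    (h2 : ∀ k l, γ k * γ l + γ l * γ k = ∑ j, (U.b j k l + U.b j l k) • t j) :
    (∑ k, γ k ⊗ₜ[L] U.z k) * (∑ k, γ k ⊗ₜ[L] U.z k) = ∑ j, t j ⊗ₜ[L] U.ft j := by
  have := sum_alt (fun k l => (γ k * γ l - ∑ j, U.b j k l • t j) ⊗ₜ[L] (U.z k * U.z l))
    (fun k => by rw [h1, sub_self, zero_tmul]) (fun k l => by
      rw [mul_comm (U.z l), ← add_tmul, sub_add_sub_comm, h2, ← Finset.sum_add_distrib]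
      simp [add_smul])
  simp only [sub_tmul, Finset.sum_sub_distrib, sub_eq_zero] at this
  rw [Finset.sum_mul_sum]
  simp only [Algebra.TensorProduct.tmul_mul_tmul]
  rw [this]
  simp only [Setup.ft, sum_tmul, tmul_sum, smul_tmul]
  rw [Finset.sum_comm (s := Finset.univ) (f := fun j k => ∑ l,
    t j ⊗ₜ[L] (U.b j k l • (U.z k * U.z l)))]
  exact Finset.sum_congr rfl fun k _ => Finset.sum_comm

theorem anti {S : Type u} [CommRing S] [Algebra L S] (z : Fin c → S) (γ γ' : Fin c → D)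
    (h : ∀ k l, γ k * γ' l + γ' l * γ k = 0) :
    (∑ k, γ k ⊗ₜ[L] z k) * (∑ k, γ' k ⊗ₜ[L] z k) =
      -((∑ k, γ' k ⊗ₜ[L] z k) * (∑ k, γ k ⊗ₜ[L] z k)) := by
  rw [eq_neg_iff_add_eq_zero, Finset.sum_mul_sum, Finset.sum_mul_sum,
    Finset.sum_comm (f := fun l k => γ' l ⊗ₜ[L] z l * γ k ⊗ₜ[L] z k), ← Finset.sum_add_distrib]
  refine Finset.sum_eq_zero fun k _ => ?_
  rw [← Finset.sum_add_distrib]
  refine Finset.sum_eq_zero fun l _ => ?_
  simp only [Algebra.TensorProduct.tmul_mul_tmul]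
  rw [mul_comm (z l), ← add_tmul, h, zero_tmul]

theorem Setup.ft_hom (U : Setup L σ c) (j : Fin c) : (U.ft j).IsHomogeneous 2 :=
  (homogeneousSubmodule σ L 2).sum_mem fun k _ => Submodule.sum_mem _ fun l _ =>
    Submodule.smul_mem _ _ ((U.hz k).mul (U.hz l))

theorem Setup.top [Finite σ] (U : Setup L σ c) {d : ℕ} (hd : c < d) {p : MvPolynomial σ L}
    (hp : p.IsHomogeneous d) : p ∈ U.J := by
  have h2 := congrArg (PowerSeries.coeff d) U.hs
  have h3 : ((1 + PowerSeries.X) ^ c : PowerSeries ℤ) =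
      (((1 + Polynomial.X) ^ c : Polynomial ℤ) : PowerSeries ℤ) := by simp
  rw [HS, PowerSeries.coeff_mk, h3, Polynomial.coeff_coe, Polynomial.coeff_one_add_X_pow,
    Nat.choose_eq_zero_of_lt hd] at h2
  have : pc U.J d = Sd σ L d := Submodule.eq_of_le_of_finrank_eq inf_le_left (by
    have : finrank L (pc U.J d) = finrank L (pc (U.A ⊔ Ideal.span (Set.range U.f)) d) := rfl
    omega)
  exact (mem_pc.1 (this.ge hp)).2

noncomputable def key (c : ℕ) {n : ℕ} (u : Fin n →₀ ℕ) : ℤ ×ₗ Lex (Fin n →₀ ℕ) :=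
  toLex (-∑ j with c ≤ j.val, (u j : ℤ), toLex u)

theorem key_inj (c n : ℕ) : Function.Injective (key c (n := n)) := fun _ _ h =>
  toLex.injective (congrArg Prod.snd (toLex.injective h))

theorem key_add (c : ℕ) {n : ℕ} (u v w : Fin n →₀ ℕ) (h : key c v < key c u) :
    key c (v + w) < key c (u + w) := by
  simp only [key, Prod.Lex.toLex_lt_toLex, Finsupp.add_apply, Nat.cast_add,
    Finset.sum_add_distrib] at h ⊢
  rcases h with h | ⟨h, h'⟩
  · left; omega
  · right; exact ⟨by omega, by rw [toLex_add, toLex_add]; exact add_lt_add_left h' _⟩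

theorem key_lt {n : ℕ} {i j : Fin n} (hi : i.val < c) (hj : c ≤ j.val) (u : Fin n →₀ ℕ) :
    key c (u + Finsupp.single j 1) < key c (Finsupp.single i 2) := by
  refine Prod.Lex.toLex_lt_toLex.2 (Or.inl ?_)
  have h1 : ∑ k with c ≤ k.val, ((Finsupp.single i 2 : Fin n →₀ ℕ) k : ℤ) = 0 :=
    Finset.sum_eq_zero fun k hk => by
      rw [Finsupp.single_eq_of_ne, Nat.cast_zero]
      rintro rfl
      simp at hk; omega
  have h2 := Finset.single_le_sum (s := Finset.univ.filter fun k : Fin n => c ≤ k.val)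
    (f := fun k => ((u + Finsupp.single j 1 : Fin n →₀ ℕ) k : ℤ)) (fun _ _ => by positivity)
    (a := j) (by simpa using hj)
  simp only [h1]
  simp only [Finsupp.add_apply, Finsupp.single_eq_same] at h2 ⊢
  omega

theorem main_inf [Infinite L] {n : ℕ} (hc0 : 0 < c) (hc : c ≤ n)
    (f : Fin c → MvPolynomial (Fin n) L) (hf : ∀ i, (f i).IsHomogeneous 2)
    (hr : ∀ i : Fin c, Reg (fI f i) (f i)) (N : ℕ → Submodule L (MvPolynomial (Fin n) L))
    (hN : ∀ d, N d ≤ Sd (Fin n) L d)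
    (hN' : ∀ d, ∀ p ∈ N d, ∀ q ∈ Sd (Fin n) L 1, p * q ∈ N (d + 1)) (hfN : ∀ i, f i ∈ N 2) :
    ∃ T : Set (Fin n →₀ ℕ), (∀ u ∈ T, ∀ w, u + w ∈ T) ∧
      (∀ i : Fin c, Finsupp.single (Fin.castLE hc i) 2 ∈ T) ∧
      ∀ d, finrank L (N d) = {u | u.degree = d ∧ u ∈ T}.ncard := by
  obtain ⟨l, U, hl, rfl, hA⟩ := exists_setup hc0 (by simpa using hc) f hf hr
  rw [Fintype.card_fin] at hA
  obtain ⟨D, _, _, γ, t, t', r1, r2, r3, r4⟩ := exists_D U hc0
  obtain ⟨m, hm⟩ : ∃ m, Fintype.card (Fin n) = m + 1 := ⟨n - 1, by simp; omega⟩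
  let y : Fin n → D ⊗[L] MvPolynomial (Fin n) L := fun i =>
    if h : i.val < c then ∑ k, γ ⟨i, h⟩ k ⊗ₜ U.z k else 1 ⊗ₜ l (i - c)
  have y1 : ∀ i : Fin c, y (Fin.castLE hc i) = ∑ k, γ i k ⊗ₜ U.z k := fun i => dif_pos i.2
  have y2 : ∀ r < n - c, ∃ j : Fin n, c ≤ j.val ∧ y j = 1 ⊗ₜ l r := fun r hr =>
    ⟨⟨c + r, by omega⟩, by simp, by simp [y]⟩
  have h1 : ∀ i, y i ∈ VV L D (Fin n) 1 := fun i => by
    simp only [y]
    split_ifs
    · exact Submodule.sum_mem _ fun k _ => Submodule.tmul_mem_baseChange_of_mem _ (U.hz k)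
    · exact Submodule.tmul_mem_baseChange_of_mem _ (hl _)
  have hy : ∀ i j, PM (y i * y j) (y j * y i) := fun i j => by
    by_cases hij : i = j
    · subst hij; exact Or.inl rfl
    simp only [y]
    split_ifs
    · exact Or.inr (anti _ _ _ fun k l => r3 _ _ k l (by simpa [Fin.ext_iff] using hij))
    · exact Or.inl (cen _ _).symm
    · exact Or.inl (cen _ _)
    · exact Or.inl (cen _ _)
  have hsq : ∀ i : Fin c, y (Fin.castLE hc i) * y (Fin.castLE hc i) = ∑ j, t i j ⊗ₜ U.ft j :=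
    fun i => by rw [y1]; exact U.sq _ _ (r1 i) (r2 i)
  have hft : ∀ j, (1 : D) ⊗ₜ[L] U.ft j =
      ∑ i, t' j i • (y (Fin.castLE hc i) * y (Fin.castLE hc i)) := fun j => by
    simp only [hsq, Finset.smul_sum, smul_tmul', smul_eq_mul]
    rw [Finset.sum_comm]
    simp only [← sum_tmul, r4, ite_tmul]
    simp
  have hV1 := VV_one y hm h1 hy c fun d hd => bc_le fun p hp => by
    have hJ : U.J ≤ Ideal.span (l '' Set.Iio (n - c) ∪ Set.range U.ft) := by
      have hA' : U.A ≤ Ideal.span (l '' Set.Iio (n - c) ∪ Set.range U.ft) :=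
        hA ▸ Ideal.span_mono Set.subset_union_left
      refine sup_le hA' (Ideal.span_le.2 ?_)
      rintro _ ⟨j, rfl⟩
      simpa [Setup.ft] using add_mem (hA' (U.hb j))
        (Ideal.subset_span (Or.inr (Set.mem_range_self j)))
    refine hc_mem _ (((⨆ i ∈ Finset.univ, (VV L D (Fin n) d).map
      (LinearMap.mulRight D (y i))).restrictScalars L).comap (TensorProduct.mk L D _ 1)) (d + 1)
      ?_ (hJ (U.top (by omega) hp)) hp
    rintro g (⟨r, hr, rfl⟩ | ⟨j, rfl⟩)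
    · refine ⟨1, hl r, fun q _ hq => ?_⟩
      obtain ⟨j, -, hj⟩ := y2 r hr
      exact Submodule.mem_iSup_of_mem j (Submodule.mem_iSup_of_mem (Finset.mem_univ _)
        ⟨1 ⊗ₜ q, Submodule.tmul_mem_baseChange_of_mem _ hq, by simp [hj, mul_comm]⟩)
    · refine ⟨2, U.ft_hom j, fun q h2 hq => ?_⟩
      have : (1 : D) ⊗ₜ[L] (U.ft j * q) = ∑ i, t' j i •
          ((1 : D) ⊗ₜ[L] q * y (Fin.castLE hc i) * y (Fin.castLE hc i)) := by
        rw [show (1 : D) ⊗ₜ[L] (U.ft j * q) = (1 : D) ⊗ₜ[L] U.ft j * (1 : D) ⊗ₜ[L] q by simp, hft,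
          Finset.sum_mul]
        exact Finset.sum_congr rfl fun i _ => by rw [smul_mul_assoc, ← cen, ← mul_assoc]
      show (1 : D) ⊗ₜ[L] (U.ft j * q) ∈ (⨆ i ∈ Finset.univ, (VV L D (Fin n) d).map
        (LinearMap.mulRight D (y i)))
      rw [this]
      refine Submodule.sum_mem _ fun i _ => Submodule.smul_mem _ _ ?_
      refine Submodule.mem_iSup_of_mem _ (Submodule.mem_iSup_of_mem (Finset.mem_univ _)
        ⟨_, ?_, rfl⟩)
      have := VV_mul (Submodule.tmul_mem_baseChange_of_mem (1 : D) hq) (h1 (Fin.castLE hc i))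
      rwa [show d + 1 - 2 + 1 = d by omega] at this
  have hV := VV_eq y h1 hy hV1
  refine ⟨Old y (key c) N, fun u hu w => old_add y _ (key_add c) N hN' h1 hy hu w, fun i => ?_,
    old_card y hm _ (key_inj c n) N hN hV⟩
  have e : PM (YY y (Finsupp.single (Fin.castLE hc i) 2))
      (y (Fin.castLE hc i) * y (Fin.castLE hc i)) := by
    have a1 := YY_add y hy 0 (Fin.castLE hc i)
    have a2 := YY_add y hy (Finsupp.single (Fin.castLE hc i) 1) (Fin.castLE hc i)
    rw [zero_add, YY_zero, one_mul] at a1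
    rw [← Finsupp.single_add] at a2
    exact a2.trans (a1.mul_right _)
  rw [Old, Set.mem_setOf_eq, e.mem, hsq, Finsupp.degree_single]
  refine Submodule.sum_mem _ fun j _ => ?_
  have : t i j ⊗ₜ[L] U.ft j = t i j ⊗ₜ[L] U.f j - t i j • (1 : D) ⊗ₜ[L] (U.f j - U.ft j) := by
    rw [smul_tmul', smul_eq_mul, mul_one, ← tmul_sub, sub_sub_cancel]
  rw [this]
  refine sub_mem (Submodule.mem_sup_left (Submodule.tmul_mem_baseChange_of_mem _ (hfN j)))
    (Submodule.mem_sup_right (Submodule.smul_mem _ _ ?_))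
  refine hc_mem (l '' Set.Iio (n - c)) (((Submodule.span D (YY y '' {v | v.degree = 2 ∧
    key c v < key c (Finsupp.single (Fin.castLE hc i) 2)})).restrictScalars L).comap
    (TensorProduct.mk L D _ 1)) 2 ?_ (by have := U.hb j; rwa [hA] at this)
    ((U.hf j).sub (U.ft_hom j))
  rintro _ ⟨r, hr, rfl⟩
  refine ⟨1, hl r, fun q _ hq => ?_⟩
  obtain ⟨j, hj, hj'⟩ := y2 r hr
  have h3 : VV L D (Fin n) 1 ≤ (Submodule.span D (YY y '' {v | v.degree = 2 ∧
      key c v < key c (Finsupp.single (Fin.castLE hc i) 2)})).comap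
        (LinearMap.mulRight D (y j)) := by
    rw [hV, Submodule.span_le]
    rintro _ ⟨v, hv, rfl⟩
    rw [SetLike.mem_coe, Submodule.mem_comap, LinearMap.mulRight_apply, ← (YY_add y hy v j).mem]
    exact Submodule.subset_span ⟨_, ⟨by rw [map_add, mem_anti.1 hv, Finsupp.degree_single],
      key_lt (i := Fin.castLE hc i) i.2 hj v⟩, rfl⟩
  simpa [hj', mul_comm] using h3 (Submodule.tmul_mem_baseChange_of_mem (1 : D) hq)

end Vale.Agent.P200
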