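import Mathlib

open PowerSeries

namespace Vale.Agent.P200

/-- `(1 - X)^m H` is a polynomial whose value at `1` is `r`. -/
def HasR (m : ℕ) (H : ℤ⟦X⟧) (r : ℤ) : Prop :=
  ∃ q : Polynomial ℤ, (1 - X) ^ m * H = (q : ℤ⟦X⟧) ∧ q.eval 1 = r

theorem coeff_one_sub_X_mul (H : ℤ⟦X⟧) (d : ℕ) :
    coeff (d + 1) ((1 - X) * H) = coeff (d + 1) H - coeff d H := by
  rw [sub_mul, one_mul, map_sub, coeff_succ_X_mul]

theorem ev_neg_of_step (h : ℕ → ℤ) (d0 : ℕ) (hs : ∀ d ≥ d0, h (d + 1) - h d ≤ -1) :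
    ∃ d1, ∀ d ≥ d1, h d ≤ -1 := by
  have key : ∀ k : ℕ, h (d0 + k) ≤ h d0 - k := by
    intro k
    induction k with
    | zero => simp
    | succ k ih =>
      have := hs (d0 + k) (by omega)
      rw [← add_assoc]; push_cast; linarith
  refine ⟨d0 + (h d0).toNat + 1, fun d hd => ?_⟩
  obtain ⟨k, rfl⟩ : ∃ k, d = d0 + k := ⟨d - d0, by omega⟩
  have h1 := key k
  have h2 : ((h d0).toNat : ℤ) + 1 ≤ k := by exact_mod_cast (by omega : (h d0).toNat + 1 ≤ k)
  have h3 := Int.self_le_toNat (h d0)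
  linarith

theorem ev_neg (m : ℕ) : ∀ (H : ℤ⟦X⟧) (q : Polynomial ℤ), (1 - X) ^ (m + 1) * H = (q : ℤ⟦X⟧) →
    q.eval 1 < 0 → ∃ d1, ∀ d ≥ d1, coeff d H ≤ -1 := by
  induction m with
  | zero =>
    intro H q h hq
    rw [zero_add, pow_one] at h
    have key : ∀ d, coeff d H = ∑ i ∈ Finset.range (d + 1), q.coeff i := by
      intro d
      induction d with
      | zero =>
        have := congrArg (coeff 0) h
        simpa [sub_mul] using this
      | succ d ih =>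
        have := congrArg (coeff (d + 1)) h
        rw [coeff_one_sub_X_mul, Polynomial.coeff_coe] at this
        rw [Finset.sum_range_succ, ← ih]; linarith
    refine ⟨q.natDegree, fun d hd => ?_⟩
    have e : q.eval 1 = ∑ i ∈ Finset.range (d + 1), q.coeff i := by
      rw [Polynomial.eval_eq_sum_range' (n := d + 1) (by omega)]; simp
    rw [key, ← e]
    omega
  | succ m ih =>
    intro H q h hq
    obtain ⟨d0, hd0⟩ := ih ((1 - X) * H) q (by rw [← h]; ring) hq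
    refine ev_neg_of_step (fun d => coeff d H) d0 fun d hd => ?_
    have := hd0 (d + 1) (by omega)
    rwa [coeff_one_sub_X_mul] at this

theorem HasR.nonneg {m : ℕ} {H : ℤ⟦X⟧} {r : ℤ} (h : HasR (m + 1) H r)
    (h0 : ∀ d, 0 ≤ coeff d H) : 0 ≤ r := by
  obtain ⟨q, hq, rfl⟩ := h
  by_contra hn
  obtain ⟨d, hd⟩ := ev_neg m H q hq (by omega)
  have := hd d le_rfl
  have := h0 d
  omega

theorem HasR.sub {m : ℕ} {H H' : ℤ⟦X⟧} {r r' : ℤ} (h : HasR m H r) (h' : HasR m H' r') :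
    HasR m (H - H') (r - r') := by
  obtain ⟨q, hq, rfl⟩ := h
  obtain ⟨q', hq', rfl⟩ := h'
  exact ⟨q - q', by rw [mul_sub, hq, hq']; simp, by simp⟩

theorem HasR.poly_mul {m : ℕ} {H : ℤ⟦X⟧} {r : ℤ} (h : HasR m H r) (p : Polynomial ℤ) :
    HasR m ((p : ℤ⟦X⟧) * H) (p.eval 1 * r) := by
  obtain ⟨q, hq, rfl⟩ := h
  exact ⟨p * q, by rw [mul_left_comm, hq]; simp, by simp⟩

/-- The generating series of monomials in `m + 1` variables. -/
noncomputable def mon (m : ℕ) : ℤ⟦X⟧ := mk fun n => ((m + n).choose m : ℤ)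

theorem mon_spec (m : ℕ) : (1 - X) ^ (m + 1) * mon m = 1 := by
  rw [mul_comm]; exact mk_add_choose_mul_one_sub_pow_eq_one ℤ m

theorem hasR_mon (m : ℕ) : HasR (m + 1) (mon m) 1 := ⟨1, by simpa using mon_spec m, by simp⟩

theorem HasR.le_one {m : ℕ} {H : ℤ⟦X⟧} {r : ℤ} (h : HasR (m + 1) H r)
    (h0 : ∀ d, coeff d H ≤ ((m + d).choose m : ℤ)) : r ≤ 1 := by
  have := ((hasR_mon m).sub h).nonneg fun d => by
    rw [map_sub, mon, coeff_mk]; linarith [h0 d]
  omega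

/-- Substitution `X ↦ X^2`. -/
noncomputable def dbl (G : ℤ⟦X⟧) : ℤ⟦X⟧ := mk fun e => if e % 2 = 0 then coeff (e / 2) G else 0

theorem dbl_mul (G : ℤ⟦X⟧) : dbl ((1 - X) * G) = (1 - X ^ 2) * dbl G := by
  ext e
  rw [sub_mul (1 : ℤ⟦X⟧) (X ^ 2), one_mul, map_sub, coeff_X_pow_mul']
  simp only [dbl, coeff_mk]
  rcases Nat.lt_or_ge e 2 with he | he
  · interval_cases e
    · simp [sub_mul]
    · simp
  · obtain ⟨k, rfl⟩ : ∃ k, e = k + 2 := ⟨e - 2, by omega⟩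
    rw [if_pos he, Nat.add_sub_cancel, Nat.add_mod_right, Nat.add_div_right _ (by norm_num)]
    split_ifs
    · exact coeff_one_sub_X_mul _ _
    · simp

theorem dbl_pow_mul (k : ℕ) (G : ℤ⟦X⟧) : dbl ((1 - X) ^ k * G) = (1 - X ^ 2) ^ k * dbl G := by
  induction k with
  | zero => simp
  | succ k ih => rw [pow_succ', mul_assoc, dbl_mul, ih]; ring

theorem dbl_one : dbl 1 = 1 := by
  ext e
  simp only [dbl, coeff_mk, coeff_one]
  split_ifs <;> first | rfl | omega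

theorem coeff_nonneg_one_add_X_pow_mul (k : ℕ) (G : ℤ⟦X⟧) (h : ∀ d, 0 ≤ coeff d G) :
    ∀ d, 0 ≤ coeff d ((1 + X) ^ k * G) := by
  induction k with
  | zero => simpa using h
  | succ k ih =>
    intro d
    rw [pow_succ', mul_assoc, add_mul, one_mul, map_add]
    cases d with
    | zero => simpa using ih 0
    | succ d => rw [coeff_succ_X_mul]; linarith [ih d, ih (d + 1)]

theorem HasR.one_le {m : ℕ} {H : ℤ⟦X⟧} {r : ℤ} (h : HasR (m + 1) H r) (e0 : ℕ)
    (h0 : ∀ d, 0 ≤ coeff d H)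
    (h1 : ∀ k, ((m + k).choose m : ℤ) ≤ coeff (e0 + 2 * k) H) : 1 ≤ r := by
  have hd : (1 - X) ^ (m + 1) * ((1 + X) ^ (m + 1) * dbl (mon m)) = 1 := by
    rw [← mul_assoc, ← mul_pow, show ((1 : ℤ⟦X⟧) - X) * (1 + X) = 1 - X ^ 2 by ring,
      ← dbl_pow_mul, mon_spec, dbl_one]
  have hA : HasR (m + 1) ((1 + X) ^ (m + 1) * (X ^ e0 * dbl (mon m))) 1 :=
    ⟨Polynomial.X ^ e0, by
      rw [mul_left_comm ((1 + X) ^ (m + 1)), mul_left_comm, hd]; simp, by simp⟩
  have hB := h.poly_mul ((1 + Polynomial.X) ^ (m + 1))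
  have hB' : HasR (m + 1) ((1 + X) ^ (m + 1) * H) (2 ^ (m + 1) * r) := by
    simpa [one_add_one_eq_two] using hB
  have hC := (hB'.sub hA).nonneg fun d => by
    rw [← mul_sub]
    refine coeff_nonneg_one_add_X_pow_mul _ _ (fun e => ?_) d
    rw [map_sub, coeff_X_pow_mul']
    split_ifs with he
    · obtain ⟨k, rfl⟩ : ∃ k, e = e0 + k := ⟨e - e0, by omega⟩
      rw [Nat.add_sub_cancel_left, dbl, coeff_mk]
      split_ifs with hk
      · obtain ⟨j, rfl⟩ : ∃ j, k = 2 * j := ⟨k / 2, by omega⟩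
        rw [show 2 * j / 2 = j by omega, mon, coeff_mk]
        linarith [h1 j]
      · simpa using h0 _
    · simpa using h0 _
  by_contra hn
  have : r ≤ 0 := by omega
  have : (2 : ℤ) ^ (m + 1) * r ≤ 0 := mul_nonpos_of_nonneg_of_nonpos (by positivity) this
  omega

end Vale.Agent.P200
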