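import Vale.Agent.P200.Graded

open Module MvPolynomial

namespace Vale.Agent.P200

universe u

variable {L : Type u} [Field L] {σ : Type}

def fI {R : Type*} [CommRing R] {c : ℕ} (f : Fin c → R) (k : ℕ) : Ideal R :=
  Ideal.span (f '' {j | j.val < k})

theorem fI_zero {R : Type*} [CommRing R] {c : ℕ} (f : Fin c → R) : fI f 0 = ⊥ := by simp [fI]

theorem fI_succ {R : Type*} [CommRing R] {c : ℕ} (f : Fin c → R) (i : Fin c) :
    fI f (i + 1) = fI f i ⊔ Ideal.span {f i} := by
  rw [fI, fI, ← Ideal.span_union, ← Set.image_singleton, ← Set.image_union]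
  congr 2
  ext j
  simp only [Set.mem_setOf_eq, Set.mem_union, Set.mem_singleton_iff, Fin.ext_iff]
  omega

theorem fI_all {R : Type*} [CommRing R] {c : ℕ} (f : Fin c → R) :
    fI f c = Ideal.span (Set.range f) := by
  rw [fI]; congr 1; ext; simp

def lI {R : Type*} [CommRing R] (l : ℕ → R) (r : ℕ) : Ideal R := Ideal.span (l '' Set.Iio r)

theorem lI_update {R : Type*} [CommRing R] (l : ℕ → R) (r : ℕ) (x : R) :
    lI (Function.update l r x) (r + 1) = lI l r ⊔ Ideal.span {x} := by
  rw [lI, lI, ← Ideal.span_union]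
  congr 1
  ext y
  simp only [Set.mem_image, Set.mem_Iio, Set.mem_union, Set.mem_singleton_iff]
  constructor
  · rintro ⟨j, hj, rfl⟩
    by_cases h : j = r
    · subst h; simp
    · exact Or.inl ⟨j, by omega, by simp [h]⟩
  · rintro (⟨j, hj, rfl⟩ | rfl)
    · exact ⟨j, by omega, by rw [Function.update_of_ne (by omega)]⟩
    · exact ⟨r, by omega, by simp⟩

theorem exists_lin [Fintype σ] [Infinite L] {c : ℕ} (f : Fin c → MvPolynomial σ L)
    (hr : ∀ i : Fin c, Reg (fI f i) (f i)) : ∀ r, r + c ≤ Fintype.card σ →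
    ∃ l : ℕ → MvPolynomial σ L, (∀ j, (l j).IsHomogeneous 1) ∧
      Dp (Fintype.card σ - r) (lI l r) ∧ (∀ i : Fin c, Reg (lI l r ⊔ fI f i) (f i)) ∧ Hg (lI l r) ∧
      HS (lI l r) = (1 - PowerSeries.X) ^ r * HS (⊥ : Ideal (MvPolynomial σ L)) := by
  intro r
  induction r with
  | zero =>
    intro _
    have : lI (fun _ => (0 : MvPolynomial σ L)) 0 = ⊥ := by simp [lI]
    refine ⟨fun _ => 0, fun _ => isHomogeneous_zero _ _ _, ?_, ?_, ?_, ?_⟩ <;> rw [this]
    · exact dp_bot
    · simpa using hr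
    · exact hg_bot
    · simp
  | succ r ih =>
    intro h
    obtain ⟨l, hl, hd, hreg, hg, hs⟩ := ih (by omega)
    have hdp : ∀ k ≤ c, Dp (Fintype.card σ - r - k) (lI l r ⊔ fI f k) := by
      intro k
      induction k with
      | zero => intro _; simpa [fI_zero] using hd
      | succ k ihk =>
        intro hk
        have := ihk (by omega)
        rw [show Fintype.card σ - r - k = (Fintype.card σ - r - (k + 1)) + 1 by omega] at this
        have h2 := Dp.quot _ this (hreg ⟨k, hk⟩)
        rwa [sup_assoc, ← fI_succ f ⟨k, hk⟩] at h2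
    obtain ⟨x, hx, hxr⟩ := avoid (ρ := Fin (c + 1)) (fun k => lI l r ⊔ fI f k) fun k => by
      have := hdp k (by omega)
      rw [show Fintype.card σ - r - k = (Fintype.card σ - r - (k + 1)) + 1 by omega] at this
      exact this.soc
    have hx0 : Reg (lI l r) x := by simpa [fI_zero] using hxr 0
    refine ⟨Function.update l r x, fun j => ?_, ?_, fun i => ?_, ?_, ?_⟩
    · by_cases hj : j = r
      · subst hj; simpa
      · simpa [hj] using hl j
    · rw [lI_update]
      rw [show Fintype.card σ - r = (Fintype.card σ - (r + 1)) + 1 by omega] at hd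
      exact Dp.quot _ hd hx0
    · rw [lI_update, sup_right_comm]
      refine (hreg i).swap ?_
      rw [sup_assoc, ← fI_succ]
      exact hxr i.succ
    · rw [lI_update]; exact hg.sup_span hx
    · rw [lI_update, HS_sup hg hx hx0, hs]; ring

theorem syz_of_reg {R : Type*} [CommRing R] {c : ℕ} (f : Fin c → R) (A : Ideal R)
    (hr : ∀ i : Fin c, Reg (A ⊔ fI f i) (f i)) (w : Fin c → R) (hw : ∑ i, f i * w i ∈ A) (i : Fin c) :
    w i ∈ A ⊔ Ideal.span (Set.range f) := by
  classical
  have key : ∀ k ≤ c, ∀ w : Fin c → R, ∑ i with i.val < k, f i * w i ∈ A →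
      ∀ i : Fin c, i.val < k → w i ∈ A ⊔ fI f k := by
    intro k
    induction k with
    | zero => intro _ _ _ i hi; omega
    | succ k ih =>
      intro hk w hw i hi
      have hsplit : (Finset.univ.filter fun i : Fin c => i.val < k + 1) =
          insert ⟨k, hk⟩ (Finset.univ.filter fun i : Fin c => i.val < k) := by
        ext j; simp [Fin.ext_iff]; omega
      rw [hsplit, Finset.sum_insert (by simp)] at hw
      have hmem : ∀ v : Fin c → R, ∑ i with i.val < k, f i * v i ∈ fI f k := fun v =>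
        Ideal.sum_mem _ fun j hj => Ideal.mul_mem_right _ _
          (Ideal.subset_span ⟨j, by simpa using hj, rfl⟩)
      have h1 : w ⟨k, hk⟩ ∈ A ⊔ fI f k := hr ⟨k, hk⟩ _ (by
        have := sub_mem (Ideal.mem_sup_left hw) (Ideal.mem_sup_right (S := A) (hmem w))
        simpa using this)
      have hle : A ⊔ fI f k ≤ A ⊔ fI f (k + 1) := by
        rw [fI_succ f ⟨k, hk⟩]; exact sup_le_sup_left le_sup_left _
      by_cases hik : i.val = k
      · have : i = ⟨k, hk⟩ := Fin.ext hik
        rw [this]; exact hle h1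
      obtain ⟨a, ha, g, hg, hag⟩ := Submodule.mem_sup.1 h1
      have hg' : ∃ v : Fin c → R, g = ∑ i with i.val < k, f i * v i := by
        clear hag
        induction hg using Submodule.span_induction with
        | mem x hx =>
          obtain ⟨j, hj, rfl⟩ := hx
          refine ⟨Pi.single j 1, ?_⟩
          rw [Finset.sum_eq_single j]
          · simp
          · intro b _ hb; simp [hb]
          · intro h; exact absurd (by simpa using hj) h
        | zero => exact ⟨0, by simp⟩
        | add x y _ _ hx hy =>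
          obtain ⟨v, rfl⟩ := hx
          obtain ⟨v', rfl⟩ := hy
          exact ⟨v + v', by simp [mul_add, Finset.sum_add_distrib]⟩
        | smul r x _ hx =>
          obtain ⟨v, rfl⟩ := hx
          exact ⟨fun j => r * v j, by simp [Finset.mul_sum, mul_left_comm]⟩
      obtain ⟨v, rfl⟩ := hg'
      have h2 := ih (by omega) (fun j => w j + f ⟨k, hk⟩ * v j) (by
        have := sub_mem hw (A.mul_mem_left (f ⟨k, hk⟩) ha)
        rw [← hag, mul_add, Finset.mul_sum] at this
        simp only [mul_add, Finset.sum_add_distrib]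
        have e : ∀ j, f j * (f ⟨k, hk⟩ * v j) = f ⟨k, hk⟩ * (f j * v j) := fun j => by ring
        simp only [e]
        rwa [show ∀ a b c : R, a + b + c - a = c + b from fun a b c => by ring] at this)
        i (by omega)
      have h3 : f ⟨k, hk⟩ * v i ∈ A ⊔ fI f (k + 1) := by
        rw [fI_succ f ⟨k, hk⟩]
        exact Ideal.mem_sup_right (Ideal.mem_sup_right
          (Ideal.mul_mem_right _ _ (Ideal.subset_span rfl)))
      simpa using sub_mem (hle h2) h3
  rw [← fI_all]
  exact key c le_rfl w (by simpa using hw) i i.2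

/-- The commutative data used by the construction. -/
structure Setup (L : Type u) [Field L] (σ : Type) (c : ℕ) where
  A : Ideal (MvPolynomial σ L)
  f : Fin c → MvPolynomial σ L
  z : Fin c → MvPolynomial σ L
  b : Fin c → Fin c → Fin c → L
  hA : Hg A
  hf : ∀ i, (f i).IsHomogeneous 2
  hz : ∀ i, (z i).IsHomogeneous 1
  hb : ∀ j, f j - ∑ k, ∑ l, b j k l • (z k * z l) ∈ A
  syz : ∀ w : Fin c → MvPolynomial σ L, ∑ i, f i * w i ∈ A →
    ∀ i, w i ∈ A ⊔ Ideal.span (Set.range f)
  hJ : Hg (A ⊔ Ideal.span (Set.range f))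
  hs : HS (A ⊔ Ideal.span (Set.range f)) = (1 + PowerSeries.X) ^ c

theorem exists_z [Finite σ] {c : ℕ} (A : Ideal (MvPolynomial σ L))
    (h : (finrank L (Sd σ L 1) : ℤ) - finrank L (pc A 1) = c) :
    ∃ z : Fin c → MvPolynomial σ L, (∀ i, (z i).IsHomogeneous 1) ∧
      ∀ p : MvPolynomial σ L, p.IsHomogeneous 1 → ∃ a : Fin c → L, p - ∑ k, a k • z k ∈ A := by
  obtain ⟨U, hU⟩ := ((pc A 1).submoduleOf (Sd σ L 1)).exists_isCompl
  have h1 := Submodule.finrank_add_eq_of_isCompl hU
  have hle : pc A 1 ≤ Sd σ L 1 := inf_le_left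
  rw [(Submodule.submoduleOfEquivOfLe hle).finrank_eq] at h1
  have h2 : finrank L U = c := by omega
  have : Module.Free L U := Module.Free.of_divisionRing L U
  let e := Module.finBasisOfFinrankEq L U h2
  refine ⟨fun k => ((e k : U) : Sd σ L 1), fun k => ((e k : U) : Sd σ L 1).2, fun p hp => ?_⟩
  have : (⟨p, hp⟩ : Sd σ L 1) ∈ (pc A 1).submoduleOf (Sd σ L 1) ⊔ U := by
    rw [hU.sup_eq_top]; trivial
  obtain ⟨x, hx, y, hy, hxy⟩ := Submodule.mem_sup.1 this
  refine ⟨fun k => e.repr ⟨y, hy⟩ k, ?_⟩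
  have h3 := congrArg (fun v : U => ((v : Sd σ L 1) : MvPolynomial σ L)) (e.sum_repr ⟨y, hy⟩)
  simp only [Submodule.coe_sum, Submodule.coe_smul] at h3
  have h4 := congrArg Subtype.val hxy
  simp only [Submodule.coe_add] at h4
  rw [h3, ← h4, add_sub_cancel_right]
  exact hx.2

theorem exists_b {c : ℕ} (A : Ideal (MvPolynomial σ L)) (z : Fin c → MvPolynomial σ L)
    (hz : ∀ p : MvPolynomial σ L, p.IsHomogeneous 1 → ∃ a : Fin c → L, p - ∑ k, a k • z k ∈ A)
    (p : MvPolynomial σ L) (hp : p.IsHomogeneous 2) :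
    ∃ b : Fin c → Fin c → L, p - ∑ k, ∑ l, b k l • (z k * z l) ∈ A := by
  have hp' : p ∈ homogeneousSubmodule σ L 1 * homogeneousSubmodule σ L 1 := by
    rw [← pow_two, homogeneousSubmodule_one_pow]; exact hp
  clear hp
  induction hp' using Submodule.mul_induction_on' with
  | mem_mul_mem x hx y hy =>
    obtain ⟨a, ha⟩ := hz x hx
    obtain ⟨a', ha'⟩ := hz y hy
    refine ⟨fun k l => a k * a' l, ?_⟩
    have := add_mem (A.mul_mem_right y ha) (A.mul_mem_left (∑ k, a k • z k) ha')
    rw [show ∀ x y u v : MvPolynomial σ L, (x - u) * y + u * (y - v) = x * y - u * v from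
      fun x y u v => by ring, Finset.sum_mul_sum] at this
    simpa [smul_smul, mul_comm] using this
  | add x _ y _ hx hy =>
    obtain ⟨b, hb⟩ := hx
    obtain ⟨b', hb'⟩ := hy
    refine ⟨b + b', ?_⟩
    have := add_mem hb hb'
    simp only [Pi.add_apply, add_smul, Finset.sum_add_distrib]
    rwa [show ∀ x y u v : MvPolynomial σ L, x - u + (y - v) = x + y - (u + v) from
      fun x y u v => by ring] at this

theorem exists_setup [Fintype σ] [Infinite L] {c : ℕ} (hc0 : 0 < c) (hc : c ≤ Fintype.card σ)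
    (f : Fin c → MvPolynomial σ L) (hf : ∀ i, (f i).IsHomogeneous 2)
    (hr : ∀ i : Fin c, Reg (fI f i) (f i)) :
    ∃ (l : ℕ → MvPolynomial σ L) (U : Setup L σ c), (∀ j, (l j).IsHomogeneous 1) ∧ U.f = f ∧
      U.A = lI l (Fintype.card σ - c) := by
  obtain ⟨l, hl, -, hreg, hg, hs⟩ := exists_lin f hr (Fintype.card σ - c) (by omega)
  obtain ⟨m, hm⟩ : ∃ m, Fintype.card σ = m + 1 := ⟨Fintype.card σ - 1, by omega⟩
  set A := lI l (Fintype.card σ - c) with hA
  rw [HS_bot hm] at hs
  have hmon := mon_spec m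
  have hA1 : (1 - PowerSeries.X) ^ c * HS A = 1 := by
    rw [hs, ← mul_assoc, ← pow_add, show c + (Fintype.card σ - c) = m + 1 by omega, hmon]
  have hAm : HS A = mon (c - 1) := by
    have h2 := mon_spec (c - 1)
    rw [show c - 1 + 1 = c by omega] at h2
    calc HS A = ((1 - PowerSeries.X) ^ c * mon (c - 1)) * HS A := by rw [h2, one_mul]
      _ = mon (c - 1) * ((1 - PowerSeries.X) ^ c * HS A) := by ring
      _ = _ := by rw [hA1, mul_one]
  obtain ⟨z, hz, hz'⟩ := exists_z (c := c) A (by
    have := congrArg (PowerSeries.coeff 1) hAm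
    simp only [HS, mon, PowerSeries.coeff_mk] at this
    rw [this, Nat.choose_succ_self_right]; congr 1; omega)
  choose b hb using fun j => exists_b A z hz' (f j) (hf j)
  have key : ∀ k ≤ c, Hg (A ⊔ fI f k) ∧
      HS (A ⊔ fI f k) = (1 - PowerSeries.X ^ 2) ^ k * HS A := by
    intro k
    induction k with
    | zero => intro _; simpa [fI_zero] using hg
    | succ k ih =>
      intro hk
      obtain ⟨h1, h2⟩ := ih (by omega)
      rw [fI_succ f ⟨k, hk⟩, ← sup_assoc]
      exact ⟨h1.sup_span (hf _), by rw [HS_sup h1 (hf _) (hreg ⟨k, hk⟩), h2]; ring⟩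
  obtain ⟨h1, h2⟩ := key c le_rfl
  rw [fI_all] at h1 h2
  refine ⟨l, ⟨A, f, z, b, hg, hf, hz, hb, syz_of_reg f A hreg, h1, ?_⟩, hl, rfl, rfl⟩
  rw [h2, show (1 : PowerSeries ℤ) - PowerSeries.X ^ 2 = (1 + PowerSeries.X) *
    (1 - PowerSeries.X) by ring, mul_pow, mul_assoc, hA1, mul_one]

end Vale.Agent.P200
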