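import Vale.Agent.P200.Lead

open Module MvPolynomial TensorProduct

namespace Vale.Agent.P200

universe u

variable {L : Type u} [Field L] {D : Type u} [DivisionRing D] [Algebra L D] {σ : Type}

theorem finrank_bc {S : Type u} [AddCommGroup S] [Module L S] (N : Submodule L S) :
    finrank D (N.baseChange D) = finrank L N := by
  rw [Submodule.baseChange, LinearMap.finrank_range_of_inj, Module.finrank_baseChange]
  rw [LinearMap.baseChange_eq_ltensor]
  exact Module.Flat.lTensor_preserves_injective_linearMap _ N.injective_subtype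

theorem fd_bc {S : Type u} [AddCommGroup S] [Module L S] (N : Submodule L S)
    [FiniteDimensional L N] : FiniteDimensional D (N.baseChange D) := by
  unfold Submodule.baseChange; infer_instance

theorem bc_mul {S : Type u} [CommRing S] [Algebra L S] {N1 N2 N3 : Submodule L S}
    (h : ∀ p ∈ N1, ∀ q ∈ N2, p * q ∈ N3) {x y : D ⊗[L] S} (hx : x ∈ N1.baseChange D)
    (hy : y ∈ N2.baseChange D) : x * y ∈ N3.baseChange D := by
  obtain ⟨x, rfl⟩ := hx
  obtain ⟨y, rfl⟩ := hy
  induction x with
  | zero => simp
  | add x x' h h' => rw [map_add, add_mul]; exact add_mem h h'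
  | tmul a p =>
    induction y with
    | zero => simp
    | add x x' h h' => rw [map_add, mul_add]; exact add_mem h h'
    | tmul b q =>
      simp only [LinearMap.baseChange_tmul, Algebra.TensorProduct.tmul_mul_tmul]
      exact Submodule.tmul_mem_baseChange_of_mem _ (h _ p.2 _ q.2)

theorem hc_mem (G : Set (MvPolynomial σ L)) (N : Submodule L (MvPolynomial σ L)) (d : ℕ)
    (h : ∀ g ∈ G, ∃ e, g.IsHomogeneous e ∧ ∀ q : MvPolynomial σ L, e ≤ d →
      q.IsHomogeneous (d - e) → g * q ∈ N) {p : MvPolynomial σ L} (hp : p ∈ Ideal.span G)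
    (hd : p.IsHomogeneous d) : p ∈ N := by
  have key : ∀ w, homogeneousComponent d (p * w) ∈ N := by
    clear hd
    induction hp using Submodule.span_induction with
    | mem g hg =>
      intro w
      obtain ⟨e, he, h'⟩ := h g hg
      rw [hc_mul he]
      split_ifs with hh
      · exact h' _ hh (homogeneousComponent_isHomogeneous _ _)
      · exact zero_mem _
    | zero => simp
    | add x y _ _ hx hy => intro w; rw [add_mul, map_add]; exact add_mem (hx w) (hy w)
    | smul a x _ hx => intro w; rw [smul_eq_mul, mul_comm a, mul_assoc]; exact hx _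
  have := key 1
  rwa [mul_one, homogeneousComponent_of_mem hd, if_pos rfl] at this

variable (D σ L) in
noncomputable abbrev VV (d : ℕ) : Submodule D (D ⊗[L] MvPolynomial σ L) := (Sd σ L d).baseChange D

theorem VV_mul {d e : ℕ} {x y : D ⊗[L] MvPolynomial σ L} (hx : x ∈ VV L D σ d)
    (hy : y ∈ VV L D σ e) : x * y ∈ VV L D σ (d + e) :=
  bc_mul (fun _ hp _ hq => IsHomogeneous.mul hp hq) hx hy

theorem bc_le {S : Type u} [AddCommGroup S] [Module L S] {N : Submodule L S}
    {M : Submodule D (D ⊗[L] S)} (h : ∀ p ∈ N, (1 : D) ⊗ₜ[L] p ∈ M) : N.baseChange D ≤ M := by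
  rw [Submodule.baseChange_eq_span, Submodule.span_le]
  rintro _ ⟨p, hp, rfl⟩
  exact h p hp

variable (y : σ → D ⊗[L] MvPolynomial σ L)

theorem mul_span_mem (s : Finset σ) {d : ℕ} {w : D ⊗[L] MvPolynomial σ L}
    (hw : w ∈ Submodule.span D (y '' s)) : ∀ x ∈ VV L D σ d,
      x * w ∈ ⨆ i ∈ s, (VV L D σ d).map (LinearMap.mulRight D (y i)) := by
  induction hw using Submodule.span_induction with
  | mem w hw =>
    obtain ⟨i, hi, rfl⟩ := hw
    exact fun x hx => Submodule.mem_iSup_of_mem i (Submodule.mem_iSup_of_mem hi ⟨x, hx, rfl⟩)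
  | zero => simp
  | add a b _ _ ha hb => intro x hx; rw [mul_add]; exact add_mem (ha x hx) (hb x hx)
  | smul a w _ hw =>
    intro x hx
    have : x * a • w = (x * a ⊗ₜ[L] 1) * w := by
      rw [mul_assoc, show a ⊗ₜ[L] (1 : MvPolynomial σ L) = a • (1 : D ⊗[L] MvPolynomial σ L) by
        rw [Algebra.TensorProduct.one_def, smul_tmul', smul_eq_mul, mul_one], smul_one_mul]
    rw [this]
    exact hw _ (VV_mul (e := 0) hx
      (Submodule.tmul_mem_baseChange_of_mem _ (isHomogeneous_one σ L)))

theorem YY_mem (h1 : ∀ i, y i ∈ VV L D σ 1) (u : σ →₀ ℕ) : YY y u ∈ VV L D σ u.degree := by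
  have key : ∀ l : List σ, (l.map y).prod ∈ VV L D σ l.length := by
    intro l
    induction l with
    | nil => exact Submodule.tmul_mem_baseChange_of_mem _ (isHomogeneous_one σ L)
    | cons a l ih => simpa [add_comm] using VV_mul (h1 a) ih
  have := key (Finsupp.toMultiset u).toList
  rwa [Multiset.length_toList, Finsupp.card_toMultiset] at this

variable [Fintype σ] [DecidableEq σ]

theorem VV_one {m : ℕ} (hm : Fintype.card σ = m + 1) (h1 : ∀ i, y i ∈ VV L D σ 1)
    (hy : ∀ i j, PM (y i * y j) (y j * y i)) (c : ℕ)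
    (hG : ∀ d ≥ c, VV L D σ (d + 1) ≤
      ⨆ i ∈ Finset.univ, (VV L D σ d).map (LinearMap.mulRight D (y i))) :
    VV L D σ 1 = Submodule.span D (Set.range y) := by
  have := fun d => fd_bc (D := D) (Sd σ L d)
  have hli : LinearIndependent D y := by
    rw [linearIndependent_iff_notMem_span]
    intro i0 hi0
    have h2 := gen_aux y hy (VV L D σ) (Finset.univ.erase i0) c fun d hd =>
      (hG d hd).trans (iSup₂_le fun i _ => by
        rintro _ ⟨x, hx, rfl⟩
        refine mul_span_mem y _ ?_ x hx
        by_cases hi : i = i0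
        · subst hi; simpa using hi0
        · exact Submodule.subset_span ⟨i, by simpa using hi, rfl⟩)
    obtain ⟨e, he⟩ := growth m c (finrank D (VV L D σ c))
    have h3 := finrank_biSup_le ((Finset.univ.erase i0).finsuppAntidiag e)
      (fun u => (VV L D σ c).map (LinearMap.mulRight D (YY y u))) _
      (fun u => Submodule.finrank_map_le _ _)
    have : FiniteDimensional D ↥(⨆ u ∈ (Finset.univ.erase i0).finsuppAntidiag e,
        (VV L D σ c).map (LinearMap.mulRight D (YY y u))) := by
      rw [← Finset.sup_eq_iSup]; infer_instance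
    have h4 := Submodule.finrank_mono (h2 e)
    rw [finrank_bc, finrank_Sd hm] at h4
    rw [Finset.card_finsuppAntidiag_nat_eq_choose, Finset.card_erase_of_mem (Finset.mem_univ _),
      Finset.card_univ, hm, Nat.add_sub_cancel] at h3
    omega
  refine (Submodule.eq_of_le_of_finrank_eq ?_ ?_).symm
  · rw [Submodule.span_le]; rintro _ ⟨i, rfl⟩; exact h1 i
  · rw [finrank_span_eq_card hli, finrank_bc, finrank_Sd hm, hm, Nat.choose_succ_self_right]

theorem VV_eq (h1 : ∀ i, y i ∈ VV L D σ 1) (hy : ∀ i j, PM (y i * y j) (y j * y i))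
    (h : VV L D σ 1 = Submodule.span D (Set.range y)) (d : ℕ) :
    VV L D σ d = Submodule.span D (YY y '' (Finset.univ.finsuppAntidiag d : Finset (σ →₀ ℕ))) := by
  refine le_antisymm ?_ ?_
  · have h2 := gen_aux y hy (VV L D σ) Finset.univ 0 (fun d _ => bc_le fun p hp => by
      have hp' : p ∈ homogeneousSubmodule σ L d * homogeneousSubmodule σ L 1 := by
        rw [← homogeneousSubmodule_one_pow L d, ← pow_succ, homogeneousSubmodule_one_pow]; exact hp
      clear hp
      induction hp' using Submodule.mul_induction_on' with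
      | mem_mul_mem a ha b hb =>
        have := mul_span_mem y Finset.univ (w := (1 : D) ⊗ₜ[L] b) (d := d)
          (by rw [Finset.coe_univ, Set.image_univ, ← h]
              exact Submodule.tmul_mem_baseChange_of_mem _ hb) _
          (Submodule.tmul_mem_baseChange_of_mem (1 : D) ha)
        simpa using this
      | add a _ b _ ha hb => rw [tmul_add]; exact add_mem ha hb) d
    rw [zero_add] at h2
    refine h2.trans (iSup₂_le fun u hu => ?_)
    rw [Submodule.map_le_iff_le_comap]
    refine bc_le fun p hp => ?_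
    obtain ⟨a, rfl⟩ : ∃ a, p = C a :=
      ⟨_, totalDegree_eq_zero_iff_eq_C.1 ((totalDegree_zero_iff_isHomogeneous σ).2 hp)⟩
    have : (1 : D) ⊗ₜ[L] (C a : MvPolynomial σ L) = algebraMap L D a • 1 := by
      rw [Algebra.TensorProduct.one_def, smul_tmul', smul_eq_mul, mul_one,
        Algebra.algebraMap_eq_smul_one, smul_tmul, ← Algebra.algebraMap_eq_smul_one]; rfl
    rw [this]
    refine Submodule.smul_mem _ _ ?_
    rw [Submodule.mem_comap, LinearMap.mulRight_apply, one_mul]
    exact Submodule.subset_span ⟨u, hu, rfl⟩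
  · rw [Submodule.span_le]
    rintro _ ⟨u, hu, rfl⟩
    rw [← mem_anti.1 hu]
    exact YY_mem y h1 u

/-- Exponents that are leading for the family `N`. -/
def Old {O : Type} [LinearOrder O] (key : (σ →₀ ℕ) → O)
    (N : ℕ → Submodule L (MvPolynomial σ L)) : Set (σ →₀ ℕ) :=
  {u | YY y u ∈ (N u.degree).baseChange D ⊔
    Submodule.span D (YY y '' {v | v.degree = u.degree ∧ key v < key u})}

theorem old_add {O : Type} [LinearOrder O] (key : (σ →₀ ℕ) → O)
    (hk : ∀ u v w, key v < key u → key (v + w) < key (u + w))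
    (N : ℕ → Submodule L (MvPolynomial σ L))
    (hN : ∀ d, ∀ p ∈ N d, ∀ q ∈ Sd σ L 1, p * q ∈ N (d + 1))
    (h1 : ∀ i, y i ∈ VV L D σ 1) (hy : ∀ i j, PM (y i * y j) (y j * y i))
    {u : σ →₀ ℕ} (hu : u ∈ Old y key N) (w : σ →₀ ℕ) : u + w ∈ Old y key N := by
  have step : ∀ u ∈ Old y key N, ∀ k, u + Finsupp.single k 1 ∈ Old y key N := by
    intro u hu k
    obtain ⟨a, ha, b, hb, e⟩ := Submodule.mem_sup.1 hu
    rw [Old, Set.mem_setOf_eq, (YY_add y hy u k).mem, ← e, add_mul]
    refine Submodule.add_mem_sup ?_ ?_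
    · rw [map_add, Finsupp.degree_single]
      exact bc_mul (hN _) ha (h1 k)
    · have : Submodule.span D (YY y '' {v | v.degree = u.degree ∧ key v < key u}) ≤
          (Submodule.span D (YY y '' {v | v.degree = (u + Finsupp.single k 1).degree ∧
            key v < key (u + Finsupp.single k 1)})).comap (LinearMap.mulRight D (y k)) := by
        rw [Submodule.span_le]
        rintro _ ⟨v, hv, rfl⟩
        rw [SetLike.mem_coe, Submodule.mem_comap, LinearMap.mulRight_apply,
          ← (YY_add y hy v k).mem]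
        exact Submodule.subset_span ⟨_, ⟨by rw [map_add, map_add, hv.1], hk _ _ _ hv.2⟩, rfl⟩
      exact this hb
  induction w using Finsupp.induction_linear generalizing u with
  | zero => simpa using hu
  | add a b ha hb => rw [← add_assoc]; exact hb (ha hu)
  | single k r =>
    induction r with
    | zero => simpa using hu
    | succ r ih => rw [Finsupp.single_add, ← add_assoc]; exact step _ ih k

theorem old_card {m : ℕ} (hm : Fintype.card σ = m + 1) {O : Type} [LinearOrder O]
    (key : (σ →₀ ℕ) → O) (hk : Function.Injective key)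
    (N : ℕ → Submodule L (MvPolynomial σ L)) (hN : ∀ d, N d ≤ Sd σ L d)
    (h : ∀ d, VV L D σ d =
      Submodule.span D (YY y '' (Finset.univ.finsuppAntidiag d : Finset (σ →₀ ℕ)))) (d : ℕ) :
    finrank L (N d) = {u | u.degree = d ∧ u ∈ Old y key N}.ncard := by
  have := Submodule.finiteDimensional_of_le (hN d)
  have := fd_bc (D := D) (N d)
  have h2 := count_new ((N d).baseChange D) (YY y) key hk (Finset.univ.finsuppAntidiag d)
  rw [← h, sup_eq_right.2 (Submodule.baseChange_mono D (hN d)), finrank_bc, finrank_bc, Sd_eq,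
    finrank_restrictSupport] at h2
  have h3 := Set.ncard_inter_add_ncard_diff_eq_ncard
    (Finset.univ.finsuppAntidiag d : Finset (σ →₀ ℕ)) (Old y key N) (Finset.finite_toSet _)
  rw [Set.ncard_coe_finset, h2] at h3
  have e1 : ((Finset.univ.finsuppAntidiag d : Finset (σ →₀ ℕ)) : Set _) ∩ Old y key N =
      {u | u.degree = d ∧ u ∈ Old y key N} := by
    ext u; simp only [Set.mem_inter_iff, Finset.mem_coe, mem_anti, Set.mem_setOf_eq]
  have e2 : ((Finset.univ.finsuppAntidiag d : Finset (σ →₀ ℕ)) : Set _) \ Old y key N =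
      {u | u ∈ Finset.univ.finsuppAntidiag d ∧ YY y u ∉ (N d).baseChange D ⊔ Submodule.span D
        (YY y '' {v | v ∈ Finset.univ.finsuppAntidiag d ∧ key v < key u})} := by
    ext u
    simp only [Set.mem_diff, Finset.mem_coe, mem_anti, Set.mem_setOf_eq, Old]
    exact and_congr_right fun hu => by rw [hu]
  rw [e1, e2] at h3
  omega

end Vale.Agent.P200
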